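import Vale.Agent.P207.N3.H80.GoodRel

/-!
# P207, line N3, package P13 (helper80): calculus of `BddP` and the recursion lemma
-/

open Set Filter Topology Finset

noncomputable section

namespace Vale.Agent.P207.N3.H80

open Vale.Agent.P207.N3.H476

variable {N : ℕ} {b b' : ℝ → ℝ} {s₀ q : ℝ}

/-- lowering the exponent -/
theorem BddP.lower {P : ℝ → Fin N → ℝ} (h : BddP b s₀ q N P) {q' : ℝ} (hq : q' ≤ q) :
    ∃ P' : ℝ → Fin N → ℝ, BddP b s₀ q' N P' := by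
  obtain ⟨B, hB⟩ := h
  have hB0 : 0 ≤ B := (abs_nonneg _).trans (hB 1 ⟨by norm_num, le_refl _⟩ 0 (by norm_num))
  refine ⟨fun ρ => ρ ^ (q - q') • P ρ, B, fun ρ hρ s hs => ?_⟩
  have e1 : raw b s₀ q' ρ s = ρ ^ (q - q') * raw b s₀ q ρ s := by
    unfold raw
    rw [← mul_assoc, ← Real.rpow_add hρ.1]
    congr 2
    ring
  have h1 : ρ ^ (q - q') ≤ 1 := Real.rpow_le_one hρ.1.le hρ.2 (by linarith)
  have h2 : 0 ≤ ρ ^ (q - q') := Real.rpow_nonneg hρ.1.le _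
  rw [e1, ev_smul, ← mul_sub, abs_mul, abs_of_nonneg h2]
  calc ρ ^ (q - q') * |raw b s₀ q ρ s - ev (P ρ) s| ≤ 1 * B := by
        gcongr
        exact hB ρ hρ s hs
    _ = B := one_mul B

theorem BddP.add {P P' : ℝ → Fin N → ℝ} (h : BddP b s₀ q N P) (h' : BddP b' s₀ q N P') :
    BddP (fun s => b s + b' s) s₀ q N (fun ρ => P ρ + P' ρ) := by
  obtain ⟨B, hB⟩ := h
  obtain ⟨B', hB'⟩ := h'
  refine ⟨B + B', fun ρ hρ s hs => ?_⟩
  rw [ev_add]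
  have e1 : raw (fun s => b s + b' s) s₀ q ρ s - (ev (P ρ) s + ev (P' ρ) s) =
      (raw b s₀ q ρ s - ev (P ρ) s) + (raw b' s₀ q ρ s - ev (P' ρ) s) := by
    unfold raw; ring
  rw [e1]
  exact (abs_add_le _ _).trans (add_le_add (hB ρ hρ s hs) (hB' ρ hρ s hs))

theorem BddP.smul {P : ℝ → Fin N → ℝ} (h : BddP b s₀ q N P) (c : ℝ) :
    BddP (fun s => c * b s) s₀ q N (fun ρ => c • P ρ) := by
  obtain ⟨B, hB⟩ := h
  refine ⟨|c| * B, fun ρ hρ s hs => ?_⟩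
  rw [ev_smul]
  have e1 : raw (fun s => c * b s) s₀ q ρ s - c * ev (P ρ) s =
      c * (raw b s₀ q ρ s - ev (P ρ) s) := by
    unfold raw; ring
  rw [e1, abs_mul]
  exact mul_le_mul_of_nonneg_left (hB ρ hρ s hs) (abs_nonneg _)

/-- a polynomial -/
theorem bddP_poly (P : Polynomial ℝ) (hN : P.natDegree < N) (q : ℝ) :
    ∃ P' : ℝ → Fin N → ℝ, BddP (fun s => P.eval s) 0 q N P' := by
  obtain ⟨c, hc⟩ := exists_ev P hN
  refine ⟨fun ρ => ρ ^ (-q) • dil ρ c, 0, fun ρ _ s _ => ?_⟩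
  have e1 : raw (fun s => P.eval s) 0 q ρ s = ρ ^ (-q) * P.eval (0 + ρ * s) := rfl
  rw [e1, ev_smul, ev_dil, hc, zero_add, sub_self, abs_zero]

/-- multiplication by a power -/
theorem BddP.pow_mul {P : ℝ → Fin N → ℝ} (h : BddP b 0 q N P) (k : ℕ) :
    ∃ P' : ℝ → Fin (N + k) → ℝ, BddP (fun s => s ^ k * b s) 0 (q + k) (N + k) P' := by
  obtain ⟨B, hB⟩ := h
  have hB0 : 0 ≤ B := (abs_nonneg _).trans (hB 1 ⟨by norm_num, le_refl _⟩ 0 (by norm_num))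
  have hex : ∀ c : Fin N → ℝ, ∃ c' : Fin (N + k) → ℝ, ∀ s, ev c' s = s ^ k * ev c s := by
    intro c
    set Q : Polynomial ℝ := ∑ i : Fin N, Polynomial.C (c i) * Polynomial.X ^ ((i : ℕ) + k) with hQ
    rcases Nat.eq_zero_or_pos N with h0 | h0
    · subst h0
      exact ⟨0, fun s => by simp [ev]⟩
    · have hdeg : Q.natDegree < N + k := by
        have h1 : Q.natDegree ≤ N - 1 + k := by
          rw [hQ]
          refine Polynomial.natDegree_sum_le_of_forall_le _ _ fun i _ => ?_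
          refine (Polynomial.natDegree_C_mul_X_pow_le _ _).trans ?_
          have := i.2
          omega
        omega
      obtain ⟨c', hc'⟩ := exists_ev Q hdeg
      refine ⟨c', fun s => ?_⟩
      rw [← hc', hQ, Polynomial.eval_finsetSum, ev, Finset.mul_sum]
      refine Finset.sum_congr rfl fun i _ => ?_
      simp only [Polynomial.eval_mul, Polynomial.eval_C, Polynomial.eval_pow, Polynomial.eval_X]
      rw [pow_add]
      ring
  choose pad hpad using hex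
  refine ⟨fun ρ => pad (P ρ), B, fun ρ hρ s hs => ?_⟩
  have e1 : raw (fun s => s ^ k * b s) 0 (q + k) ρ s = s ^ k * raw b 0 q ρ s := by
    have h1 : ρ ^ (-(q + k)) = ρ ^ (-q) * (ρ ^ k)⁻¹ := by
      rw [neg_add, Real.rpow_add hρ.1, Real.rpow_neg hρ.1.le (k : ℝ), Real.rpow_natCast]
    have h2 : ρ ^ k ≠ 0 := pow_ne_zero k hρ.1.ne'
    have h3 : raw (fun s => s ^ k * b s) 0 (q + k) ρ s =
        ρ ^ (-(q + k)) * ((0 + ρ * s) ^ k * b (0 + ρ * s)) := rfl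
    have h4 : raw b 0 q ρ s = ρ ^ (-q) * b (0 + ρ * s) := rfl
    rw [h3, h4, h1, zero_add, mul_pow]
    field_simp
  rw [e1, hpad, ← mul_sub, abs_mul, abs_pow]
  have h1 : |s| ^ k ≤ 1 := pow_le_one₀ (abs_nonneg _) (abs_le.2 hs)
  calc |s| ^ k * |raw b 0 q ρ s - ev (P ρ) s| ≤ 1 * B := by
        gcongr
        exact hB ρ hρ s hs
    _ = B := one_mul B

section rec

variable {μ ν : ℝ}

/-- from the discrete scales to all scales -/
theorem bddP_of_discrete (hμ : 1 < |μ|) (hq : 0 ≤ q) {B₀ : ℝ}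
    (h : ∀ m : ℕ, ∃ c : Fin N → ℝ, ∀ s ∈ Set.Icc (-1 : ℝ) 1,
      |(|μ| ^ q) ^ m * b (μ⁻¹ ^ m * s) - ev c s| ≤ B₀) :
    ∃ P : ℝ → Fin N → ℝ, BddP b 0 q N P := by
  have hμ0 : 0 < |μ| := by linarith
  have hμne : μ ≠ 0 := abs_pos.1 hμ0
  obtain ⟨c0, hc0⟩ := h 0
  have hB0 : 0 ≤ B₀ := (abs_nonneg _).trans (hc0 0 (by norm_num))
  have hex : ∀ ρ : ℝ, ∃ c' : Fin N → ℝ, ρ ∈ Set.Ioc (0 : ℝ) 1 → ∀ s ∈ Set.Icc (-1 : ℝ) 1,
      |raw b 0 q ρ s - ev c' s| ≤ |μ| ^ q * B₀ := by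
    intro ρ
    by_cases hρ : ρ ∈ Set.Ioc (0 : ℝ) 1
    · obtain ⟨m, r, hr1, hr2, hρr⟩ := scale_decomp hμ hρ
      have hr0 : 0 < r := (inv_pos.2 hμ0).trans_le hr1
      obtain ⟨c, hc⟩ := h m
      set σ : ℝ := (μ / |μ|) ^ m with hσ
      have hσ1 : |σ| = 1 := abs_sign_pow hμne m
      refine ⟨r ^ (-q) • dil (σ * r) c, fun _ s hs => ?_⟩
      have e1 : 0 + ρ * s = μ⁻¹ ^ m * (σ * r * s) := by
        rw [hρr, sign_pow hμne m, ← hσ]; ring
      have e2 : ρ ^ (-q) = (|μ| ^ q) ^ m * r ^ (-q) := by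
        rw [hρr, Real.mul_rpow (by positivity) hr0.le]
        congr 1
        rw [Real.rpow_neg (by positivity), ← Real.rpow_natCast, ← Real.rpow_natCast,
          ← Real.rpow_mul (by positivity), ← Real.rpow_mul (by positivity),
          Real.inv_rpow (by positivity), inv_inv, mul_comm]
      have e3 : raw b 0 q ρ s - ev (r ^ (-q) • dil (σ * r) c) s =
          r ^ (-q) * ((|μ| ^ q) ^ m * b (μ⁻¹ ^ m * (σ * r * s)) - ev c (σ * r * s)) := by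
        unfold raw
        rw [e1, e2, ev_smul, ev_dil]
        ring
      have hmem : σ * r * s ∈ Set.Icc (-1 : ℝ) 1 := by
        refine abs_le.1 ?_
        rw [abs_mul, abs_mul, hσ1, one_mul, abs_of_pos hr0]
        have := abs_le.2 hs
        calc r * |s| ≤ 1 * 1 := by gcongr
          _ = 1 := one_mul 1
      have hrq : r ^ (-q) ≤ |μ| ^ q := by
        rw [Real.rpow_neg hr0.le, ← Real.inv_rpow hr0.le]
        refine Real.rpow_le_rpow (by positivity) ?_ hq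
        rw [inv_le_comm₀ hr0 hμ0]; exact hr1
      have hrq0 : 0 ≤ r ^ (-q) := Real.rpow_nonneg hr0.le _
      rw [e3, abs_mul, abs_of_nonneg hrq0]
      exact mul_le_mul hrq (hc _ hmem) (abs_nonneg _) (by positivity)
    · exact ⟨0, fun h => absurd h hρ⟩
  choose P hP using hex
  exact ⟨P, _, fun ρ hρ s hs => hP ρ hρ s hs⟩

/-- **the recursion lemma**: a perturbed relation with a larger multiplier -/
theorem bddP_rec (hμ : 1 < |μ|) (hq : 0 ≤ q) (hν : |μ| ^ q < |ν|)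
    (hb : ContinuousOn b (Set.Icc (-1) 1)) {E : ℝ → ℝ} {PE : ℝ → Fin N → ℝ}
    (hE : BddP E 0 q N PE) (P : Polynomial ℝ) (hN : P.natDegree < N)
    (h : ∀ s, |μ * s| ≤ 1 → b (μ * s) = ν * b s + E s + P.eval s) :
    ∃ P' : ℝ → Fin N → ℝ, BddP b 0 q N P' := by
  have hμ0 : 0 < |μ| := by linarith
  have hμne : μ ≠ 0 := abs_pos.1 hμ0
  obtain ⟨c, hc⟩ := exists_ev P hN
  obtain ⟨BE, hBE⟩ := hE
  have hBE0 : 0 ≤ BE := (abs_nonneg _).trans (hBE 1 ⟨by norm_num, le_refl _⟩ 0 (by norm_num))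
  obtain ⟨B₁, hB₁⟩ := (isCompact_Icc (a := (-1 : ℝ)) (b := 1)).exists_bound_of_continuousOn hb
  set Q : ℝ := |μ| ^ q with hQ
  have hQ0 : 0 < Q := Real.rpow_pos_of_pos hμ0 q
  have hνpos : 0 < |ν| := hQ0.trans hν
  have hνne : ν ≠ 0 := abs_pos.1 hνpos
  set θ : ℝ := Q / |ν| with hθ
  have hθ1 : θ < 1 := by rw [hθ, div_lt_one hνpos]; exact hν
  have hθ0 : 0 ≤ θ := by positivity
  set B₀ : ℝ := |B₁| + |ν|⁻¹ * BE / (1 - θ) with hB₀
  have h1θ : 0 < 1 - θ := by linarith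
  refine bddP_of_discrete (B₀ := B₀) hμ hq fun m => ?_
  induction m with
  | zero =>
    refine ⟨0, fun s hs => ?_⟩
    have := hB₁ s hs
    rw [Real.norm_eq_abs] at this
    have e0 : ev (0 : Fin N → ℝ) s = 0 := by simp [ev]
    rw [pow_zero, pow_zero, one_mul, one_mul, e0, sub_zero, hB₀]
    have h2 : 0 ≤ |ν|⁻¹ * BE / (1 - θ) := by positivity
    linarith [le_abs_self B₁]
  | succ m ih =>
    obtain ⟨c₁, hc₁⟩ := ih
    -- the error at this scale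
    set ρ : ℝ := |μ|⁻¹ ^ (m + 1) with hρ
    have hρmem : ρ ∈ Set.Ioc (0 : ℝ) 1 :=
      ⟨by positivity, pow_le_one₀ (by positivity) (inv_le_one_of_one_le₀ hμ.le)⟩
    set σ : ℝ := (μ / |μ|) ^ (m + 1) with hσ
    have hσ1 : |σ| = 1 := abs_sign_pow hμne (m + 1)
    have hσσ : σ * σ = 1 := by
      have : |σ| * |σ| = 1 := by rw [hσ1, one_mul]
      rwa [abs_mul_abs_self] at this
    have e1 : ∀ s, 0 + ρ * (σ * s) = μ⁻¹ ^ (m + 1) * s := by
      intro s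
      rw [hρ, sign_pow hμne (m + 1), ← hσ, zero_add]
      linear_combination (μ⁻¹ ^ (m + 1) * s) * hσσ
    have e2 : ρ ^ (-q) = Q ^ (m + 1) := by
      rw [hρ, Real.rpow_neg (by positivity), ← Real.rpow_natCast, ← Real.rpow_natCast,
        ← Real.rpow_mul (by positivity), hQ, ← Real.rpow_mul (by positivity),
        Real.inv_rpow (by positivity), inv_inv, mul_comm]
    refine ⟨(Q * ν⁻¹) • c₁ - ν⁻¹ • dil σ (PE ρ) - (Q ^ (m + 1) * ν⁻¹) • dil (μ⁻¹ ^ (m + 1)) c,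
      fun s hs => ?_⟩
    have hs1 : |s| ≤ 1 := abs_le.2 hs
    have hinv : |μ|⁻¹ ≤ 1 := inv_le_one_of_one_le₀ hμ.le
    have h2 : μ * (μ⁻¹ ^ (m + 1) * s) = μ⁻¹ ^ m * s := by
      rw [pow_succ]; field_simp
    have h3 : |μ * (μ⁻¹ ^ (m + 1) * s)| ≤ 1 := by
      rw [h2, abs_mul, abs_pow, abs_inv]
      have : |μ|⁻¹ ^ m ≤ 1 := pow_le_one₀ (by positivity) hinv
      calc |μ|⁻¹ ^ m * |s| ≤ 1 * 1 := by gcongr
        _ = 1 := one_mul 1
    have h4 := h _ h3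
    rw [h2, hc] at h4
    have hσs : σ * s ∈ Set.Icc (-1 : ℝ) 1 := by
      refine abs_le.1 ?_
      rw [abs_mul, hσ1, one_mul]; exact hs1
    have h5 := hBE ρ hρmem (σ * s) hσs
    have e3 : raw E 0 q ρ (σ * s) = Q ^ (m + 1) * E (μ⁻¹ ^ (m + 1) * s) := by
      unfold raw
      rw [e1, e2]
    rw [e3] at h5
    have h6 := hc₁ s hs
    have e4 : Q ^ (m + 1) * b (μ⁻¹ ^ (m + 1) * s) -
        ev ((Q * ν⁻¹) • c₁ - ν⁻¹ • dil σ (PE ρ) - (Q ^ (m + 1) * ν⁻¹) • dil (μ⁻¹ ^ (m + 1)) c) s =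
        (Q * ν⁻¹) * (Q ^ m * b (μ⁻¹ ^ m * s) - ev c₁ s) -
        ν⁻¹ * (Q ^ (m + 1) * E (μ⁻¹ ^ (m + 1) * s) - ev (PE ρ) (σ * s)) := by
      rw [ev_sub, ev_sub, ev_smul, ev_smul, ev_smul, ev_dil, ev_dil, h4]
      have h7 : ν⁻¹ * ν = 1 := inv_mul_cancel₀ hνne
      rw [pow_succ]
      linear_combination (-Q ^ m * Q * b (μ⁻¹ ^ (m + 1) * s)) * h7
    rw [e4]
    have e5 : |Q * ν⁻¹| = θ := by rw [abs_mul, abs_inv, abs_of_pos hQ0, hθ, div_eq_mul_inv]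
    calc _ ≤ |(Q * ν⁻¹) * (Q ^ m * b (μ⁻¹ ^ m * s) - ev c₁ s)| +
          |ν⁻¹ * (Q ^ (m + 1) * E (μ⁻¹ ^ (m + 1) * s) - ev (PE ρ) (σ * s))| := abs_sub _ _
      _ = θ * |Q ^ m * b (μ⁻¹ ^ m * s) - ev c₁ s| +
          |ν|⁻¹ * |Q ^ (m + 1) * E (μ⁻¹ ^ (m + 1) * s) - ev (PE ρ) (σ * s)| := by
          rw [abs_mul (Q * ν⁻¹), e5, abs_mul ν⁻¹, abs_inv]
      _ ≤ θ * B₀ + |ν|⁻¹ * BE := by gcongr
      _ = θ * |B₁| + |ν|⁻¹ * BE / (1 - θ) := by
          rw [hB₀]; field_simp; ring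
      _ ≤ B₀ := by
          rw [hB₀]
          have := abs_nonneg B₁
          nlinarith

end rec

end Vale.Agent.P207.N3.H80
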