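import Vale.Agent.P207.N3.H80.Lin
import Vale.Agent.P207.N3.H503.Core
import Vale.Agent.P207.N3.H854.Dens

/-!
# P207, line N3, package P13 (4.1 START): the singular part of `E^s` on a leaf

If near `β^+`, in the normal coordinate, the tensor is
`smooth + c₁(x) e₀ e₀ᵀ - c₂(x) (e₀ e₁ᵀ + e₁ e₀ᵀ)`, then in all small discs it is
`smooth + Sg`, `Sg = dc² (c₁ PQ(f,f) + c₂ (PQ(f,g) + PQ(g,f)))`, `f = x₁`, `g = x₀`.
-/

set_option maxSynthPendingDepth 3

open Set Filter Topology Metric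
open scoped ContDiff

noncomputable section

namespace Vale.Agent.P207.N3.H80

open Vale.Agent.P207.N3.H545
open Vale.Agent.P207.N3.H503 (SN pr EE Mz psi rad)
open Vale.Agent.P207.N3.H854 (jj dc)

/-! ### linear algebra -/

/-- `e₀ e₁ᵀ + e₁ e₀ᵀ` -/
def XX : E2 →L[ℝ] E2 := (pr 1).smulRight (bas 0) + (pr 0).smulRight (bas 1)

theorem XX_apply (v : E2) : XX v = v 1 • bas 0 + v 0 • bas 1 := rfl

theorem riesz_pr (i : Fin 2) : riesz (pr i) = bas i := by
  refine ext_inner_right ℝ fun v => ?_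
  rw [riesz_apply, real_inner_comm, H503.inner_bas]
  rfl

theorem J_bas0 : J (bas 0) = bas 1 := by
  apply ext2
  · rw [J_zero]; simp [bas]
  · rw [J_one]; simp [bas]

theorem J_bas1 : J (bas 1) = -bas 0 := by
  apply ext2
  · rw [J_zero]; simp [bas]
  · rw [J_one]; simp [bas]

theorem Bq_11 : Bq (pr 1) (pr 1) = EE 0 := by
  ext1 v
  rw [Bq_apply, riesz_pr, J_bas1, inner_neg_left, real_inner_comm, H503.inner_bas, smul_neg,
    neg_smul, neg_neg]
  rfl

theorem Bq_sum : Bq (pr 1) (pr 0) + Bq (pr 0) (pr 1) = -XX := by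
  ext1 v
  have h1 : (Bq (pr 1) (pr 0) + Bq (pr 0) (pr 1)) v = Bq (pr 1) (pr 0) v + Bq (pr 0) (pr 1) v :=
    rfl
  have h2 : (-XX) v = -(XX v) := rfl
  rw [h1, h2, Bq_apply, Bq_apply, riesz_pr, riesz_pr, J_bas1, J_bas0, inner_neg_left,
    real_inner_comm, H503.inner_bas, real_inner_comm, H503.inner_bas, XX_apply, smul_neg,
    neg_smul, neg_add]

theorem conjT_Bq (D : E2 →L[ℝ] E2) (l l' : E2 →L[ℝ] ℝ) :
    conjT D (Bq (l.comp D) (l'.comp D)) = D.det ^ 2 • Bq l l' := by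
  ext1 x
  have h1 : (conjT D (Bq (l.comp D) (l'.comp D))) x =
      D (Bq (l.comp D) (l'.comp D) ((star D) x)) := rfl
  have h2 : (D.det ^ 2 • Bq l l') x = D.det ^ 2 • Bq l l' x := rfl
  rw [h1, h2, Bq_apply, Bq_apply, riesz_comp, riesz_comp, map_smul, J_star]
  have h3 : inner ℝ (J ((star D) (riesz l'))) ((star D) x) =
      inner ℝ (D (J ((star D) (riesz l')))) x := by
    rw [ContinuousLinearMap.star_eq_adjoint, ContinuousLinearMap.adjoint_inner_right]
  rw [h3, J_star, inner_smul_left, smul_smul, smul_smul]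
  simp only [conj_trivial]
  congr 1
  ring

theorem conjT_inv {S D : E2 →L[ℝ] E2} (h : S * D = 1) (V : E2 →L[ℝ] E2) :
    conjT S (conjT D V) = V := by
  rw [conjT_apply, conjT_apply]
  have h3 : star D * star S = 1 := by rw [← star_mul, h, star_one]
  calc S * (D * V * star D) * star S = (S * D) * V * (star D * star S) := by noncomm_ring
    _ = V := by rw [h, h3, one_mul, mul_one]

theorem conj_eq (D V : E2 →L[ℝ] E2) : conj D V = conjT D V := by
  rw [conjT_apply, ContinuousLinearMap.star_eq_adjoint, mul_assoc]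
  rfl

theorem conjT_contDiffAt {E : Type} [NormedAddCommGroup E] [NormedSpace ℝ E]
    {S V : E → E2 →L[ℝ] E2} {z : E} {m : WithTop ℕ∞} (hS : ContDiffAt ℝ m S z)
    (hV : ContDiffAt ℝ m V z) : ContDiffAt ℝ m (fun z => conjT (S z) (V z)) z := by
  have h1 := H503.conj_contDiffAt hS hV
  simpa only [conj_eq] using h1

theorem inverse_contDiffAt {E : Type} [NormedAddCommGroup E] [NormedSpace ℝ E]
    {S : E → E2 →L[ℝ] E2} {z : E} {m : WithTop ℕ∞} (hS : ContDiffAt ℝ m S z)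
    (hu : IsUnit (S z)) : ContDiffAt ℝ m (fun z => Ring.inverse (S z)) z := by
  obtain ⟨v, hv⟩ := hu
  have h1 : ContDiffAt ℝ m Ring.inverse (S z) := by
    rw [← hv]; exact contDiffAt_ringInverse ℝ v
  exact h1.comp z hS

/-! ### the singular part -/

variable {Γ X B : Type} [Group Γ] [MetricSpace X] [ProperSpace X] [MulAction Γ X]
  [IsIsometricSMul Γ X] [TopologicalSpace B] [CompactSpace B] [T2Space B] [MulAction Γ B]
  [ContinuousConstSMul Γ B]

variable {L : Leaf Γ X B} {o : Orb L}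

/-- the coordinates as functions on the leaf -/
def cf (n : Nor L o) (i : Fin 2) (η : B) : ℝ := n.x η i

theorem cf_smooth (n : Nor L o) (i : Fin 2) : L.SmoothOn o.neg (cf n i) := fun y hy =>
  (pr i).contDiff.comp_contDiffOn (n.smooth y hy)

theorem dF_cf (n : Nor L o) (i : Fin 2) {y : X} (hy : L.em y = o.neg) {u : E2}
    (hu : u ∈ ball (0 : E2) 3) : dF L (cf n i) y u = (pr i).comp (fderiv ℝ (jj n y) u) := by
  have h1 := (pr i).hasFDerivAt.comp u (H854.jj_hasFDerivAt n hy hu)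
  exact h1.fderiv

variable [MeasurableSpace B] [BorelSpace B] (A : Area L)

/-- the singular part of `E^s` -/
def Sg (n : Nor L o) (c₁ c₂ : E2 → ℝ) (y : X) (u : E2) : E2 →L[ℝ] E2 :=
  (dc n A) ^ 2 • (c₁ (n.x (L.e y u)) • PQ A (cf n 1) (cf n 1) y u +
    c₂ (n.x (L.e y u)) • (PQ A (cf n 1) (cf n 0) y u + PQ A (cf n 0) (cf n 1) y u))

theorem conj_Sg (n : Nor L o) (c₁ c₂ : E2 → ℝ) {y : X} (hy : L.em y = o.neg) {u : E2}
    (hu : u ∈ ball (0 : E2) 3) : conjT (fderiv ℝ (jj n y) u) (Sg A n c₁ c₂ y u) =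
      c₁ (jj n y u) • EE 0 - c₂ (jj n y u) • XX := by
  have ha := H854.area_eq n A hy hu
  have hdet := H854.jj_det n hy hu
  have hc := H854.dc_pos n A
  have hs := A.s_pos y u hu
  set D := fderiv ℝ (jj n y) u with hD
  have hκ : (dc n A) ^ 2 * (Real.exp (A.h * L.lv y) / A.s y u) ^ 2 * D.det ^ 2 = 1 := by
    have h1 : A.s y u = Real.exp (A.h * L.lv y) * (dc n A * |D.det|) := by
      rw [← ha, ← mul_assoc, ← Real.exp_add]
      have : A.h * L.lv y + -A.h * L.lv y = 0 := by ring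
      rw [this, Real.exp_zero, one_mul]
    rw [h1]
    have h2 : |D.det| ^ 2 = D.det ^ 2 := sq_abs _
    have h3 : |D.det| ≠ 0 := abs_ne_zero.2 hdet
    have h4 : Real.exp (A.h * L.lv y) ≠ 0 := (Real.exp_pos _).ne'
    rw [← h2]
    field_simp
  unfold Sg PQ
  rw [dF_cf n 1 hy hu, dF_cf n 0 hy hu, ← hD]
  simp only [map_smul, map_add, conjT_Bq]
  rw [← smul_add, ← smul_add, Bq_sum, Bq_11]
  have e1 : c₁ (n.x (L.e y u)) = c₁ (jj n y u) := rfl
  have e2 : c₂ (n.x (L.e y u)) = c₂ (jj n y u) := rfl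
  rw [e1, e2]
  simp only [smul_add, smul_smul, smul_neg]
  have e3 : dc n A ^ 2 * (c₁ (jj n y u) * ((Real.exp (A.h * L.lv y) / A.s y u) ^ 2 * D.det ^ 2)) =
      c₁ (jj n y u) := by
    calc _ = c₁ (jj n y u) * (dc n A ^ 2 * (Real.exp (A.h * L.lv y) / A.s y u) ^ 2 *
        D.det ^ 2) := by ring
      _ = _ := by rw [hκ, mul_one]
  have e4 : dc n A ^ 2 * (c₂ (jj n y u) * ((Real.exp (A.h * L.lv y) / A.s y u) ^ 2 * D.det ^ 2)) =
      c₂ (jj n y u) := by
    calc _ = c₂ (jj n y u) * (dc n A ^ 2 * (Real.exp (A.h * L.lv y) / A.s y u) ^ 2 *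
        D.det ^ 2) := by ring
      _ = _ := by rw [hκ, mul_one]
  rw [e3, e4, sub_eq_add_neg]

theorem Sg_trans (n : Nor L o) (c₁ c₂ : E2 → ℝ) {x y : X} (hx : L.em x = o.neg)
    (hy : L.em y = o.neg) {u : E2} (hu : u ∈ L.dm x y) :
    Sg A n c₁ c₂ x u =
      conjT (Ring.inverse (fderiv ℝ (L.τ x y) u)) (Sg A n c₁ c₂ y (L.τ x y u)) := by
  unfold Sg
  rw [PQ_trans A (cf_smooth n 1) (cf_smooth n 1) hx hy hu,
    PQ_trans A (cf_smooth n 1) (cf_smooth n 0) hx hy hu,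
    PQ_trans A (cf_smooth n 0) (cf_smooth n 1) hx hy hu, e_tau_dm L hu]
  simp only [map_smul, map_add]

/-- **the form of `E^s` in small discs** -/
theorem form {T : Tens L} {n : Nor L o} {c₁ c₂ : E2 → ℝ}
    (h : SN fun z => Mz T n z - (c₁ z • EE 0 - c₂ z • XX)) :
    ∃ ρ > 0, ∀ y, L.em y = o.neg → (∀ u ∈ ball (0 : E2) 3, ‖n.x (L.e y u)‖ < ρ) →
      ContDiffOn ℝ ∞ (fun u => T.N y u - Sg A n c₁ c₂ y u) (ball 0 3) := by
  obtain ⟨ρ₁, hρ₁, hW⟩ := h.exists_on
  refine ⟨min ρ₁ (rad n), lt_min hρ₁ (H503.rad_pos n), fun y hy hball => ?_⟩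
  set W : E2 → E2 →L[ℝ] E2 := fun z => Mz T n z - (c₁ z • EE 0 - c₂ z • XX) with hWdef
  have hx : L.em o.x = o.neg := rfl
  -- the disc is inside the disc of the axis frame
  have key : ∀ u ∈ ball (0 : E2) 3, u ∈ L.dm y o.x ∧ L.τ y o.x u = psi n (jj n y u) ∧
      jj n y u ∈ ball (0 : E2) ρ₁ ∧ jj n y u ∈ ball (0 : E2) (rad n) := by
    intro u hu
    have h1 := hball u hu
    have hz1 : jj n y u ∈ ball (0 : E2) ρ₁ := by
      rw [mem_ball_zero_iff]; exact h1.trans_le (min_le_left _ _)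
    have hz2 : jj n y u ∈ ball (0 : E2) (rad n) := by
      rw [mem_ball_zero_iff]; exact h1.trans_le (min_le_right _ _)
    have h2 : L.e o.x (psi n (jj n y u)) = L.e y u := by
      rw [H503.e_psi n hz2]
      exact n.inv_left _ (H854.e_ne_neg o hy hu)
    have h3 := H503.psi_mem n hz2
    exact ⟨⟨hu, _, h3, h2⟩, tau_eq_of L (ball_subset_closedBall h3) h2, hz1, hz2⟩
  -- the formula
  have hform : ∀ u ∈ ball (0 : E2) 3, T.N y u - Sg A n c₁ c₂ y u =
      conjT (Ring.inverse (fderiv ℝ (L.τ y o.x) u))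
        (conjT (Ring.inverse (fderiv ℝ (jj n o.x) (L.τ y o.x u))) (W (jj n y u)) -
          T.R y o.x u) := by
    intro u hu
    obtain ⟨hdm, hτ, hz1, hz2⟩ := key u hu
    have hv : L.τ y o.x u ∈ ball (0 : E2) 3 := (tau_mem_dm L hdm).1
    have hxy : L.em y = L.em o.x := hy
    have hR := T.R_eq y o.x hxy u hdm
    have hunit := isUnit_fderiv_tau L hxy hdm
    have hSD := Ring.inverse_mul_cancel _ hunit
    have hG : IsUnit (fderiv ℝ (jj n o.x) (L.τ y o.x u)) :=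
      H854.isUnit_of_det _ (H854.jj_det n hx hv)
    have hSG := Ring.inverse_mul_cancel _ hG
    have h1 : T.N y u = conjT (Ring.inverse (fderiv ℝ (L.τ y o.x) u))
        (T.N o.x (L.τ y o.x u) - T.R y o.x u) := by
      have h2 : T.N o.x (L.τ y o.x u) - T.R y o.x u =
          conjT (fderiv ℝ (L.τ y o.x) u) (T.N y u) := by
        rw [hR, ← conj_eq]
        simp [conj]
      rw [h2, conjT_inv hSD]
    have h3 : T.N o.x (L.τ y o.x u) - Sg A n c₁ c₂ o.x (L.τ y o.x u) =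
        conjT (Ring.inverse (fderiv ℝ (jj n o.x) (L.τ y o.x u))) (W (jj n y u)) := by
      have h4 : W (jj n y u) = conjT (fderiv ℝ (jj n o.x) (L.τ y o.x u))
          (T.N o.x (L.τ y o.x u) - Sg A n c₁ c₂ o.x (L.τ y o.x u)) := by
        rw [map_sub, conj_Sg A n c₁ c₂ hx hv, H854.jj_tau n hdm]
        have h5 : conjT (fderiv ℝ (jj n o.x) (L.τ y o.x u)) (T.N o.x (L.τ y o.x u)) =
            Mz T n (jj n y u) := by
          unfold Mz
          rw [← hτ, conj_eq]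
          rfl
        rw [h5]
      rw [h4, conjT_inv hSG]
    rw [h1, Sg_trans A n c₁ c₂ hy hx hdm, ← map_sub, ← h3]
    congr 1
    abel
  intro u hu
  obtain ⟨hdm, hτ, hz1, hz2⟩ := key u hu
  have hxy : L.em y = L.em o.x := hy
  have hv : L.τ y o.x u ∈ ball (0 : E2) 3 := (tau_mem_dm L hdm).1
  refine ContDiffAt.contDiffWithinAt ?_
  have hτs : ContDiffAt ℝ ∞ (L.τ y o.x) u := tau_contDiffAt L hxy hdm
  have s1 : ContDiffAt ℝ ∞ (fun u => Ring.inverse (fderiv ℝ (L.τ y o.x) u)) u :=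
    inverse_contDiffAt (hτs.fderiv_right (m := ∞) (by simp)) (isUnit_fderiv_tau L hxy hdm)
  have s2 : ContDiffAt ℝ ∞ (fun v => Ring.inverse (fderiv ℝ (jj n o.x) v)) (L.τ y o.x u) :=
    inverse_contDiffAt (H854.jj_fderiv_contDiffAt n hx hv)
      (H854.isUnit_of_det _ (H854.jj_det n hx hv))
  have s3 : ContDiffAt ℝ ∞ (fun u => Ring.inverse (fderiv ℝ (jj n o.x) (L.τ y o.x u))) u :=
    ContDiffAt.comp u s2 hτs
  have s4 : ContDiffAt ℝ ∞ (fun u => W (jj n y u)) u :=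
    ContDiffAt.comp u ((hW _ hz1).contDiffAt (isOpen_ball.mem_nhds hz1))
      (H854.jj_contDiffAt n hy hu)
  have s5 : ContDiffAt ℝ ∞ (T.R y o.x) u :=
    (T.R_smooth y o.x hxy u hdm).contDiffAt ((isOpen_dm L y o.x).mem_nhds hdm)
  have s6 := conjT_contDiffAt s1 ((conjT_contDiffAt s3 s4).sub s5)
  refine s6.congr_of_eventuallyEq ?_
  filter_upwards [isOpen_ball.mem_nhds hu] with v hv
  exact hform v hv

end Vale.Agent.P207.N3.H80
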