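import Vale.Agent.P207.N3.H545.TensR
import Vale.Agent.P207.N3.H476.Level
import Vale.Agent.P207.N3.Top.Orb

/-!
# P207, line N3, package P13 (4.1 START): the unit steps of a leaf as data for `Core`

`fr L y m = φ_{m ts} y`, `tt L y m : disc (m + 1) → disc m`, `aa L y m` the cocycle of the
symmetric tensors; Lemma R in the form `LemR` of H476.
-/

set_option maxSynthPendingDepth 3

open Set Filter Topology Metric
open scoped ContDiff

noncomputable section

namespace Vale.Agent.P207.N3.H80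

open Vale.Agent.P207.N3 H545
open Vale.Agent.P207.N3.H476 (LemR)

variable {Γ X B : Type} [Group Γ] [MetricSpace X] [ProperSpace X] [MulAction Γ X]
  [IsIsometricSMul Γ X] [TopologicalSpace B] [CompactSpace B] [T2Space B] [MulAction Γ B]
  [ContinuousConstSMul Γ B]

variable (L : Leaf Γ X B)

/-- the frames of the unit steps above `y` -/
def fr (y : X) (m : ℕ) : X := L.φ ((m : ℝ) * ts L) y

/-- the transition map from the disc `m + 1` to the disc `m` -/
def tt (y : X) (m : ℕ) : E2 → E2 := L.τ (fr L y (m + 1)) (fr L y m)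

/-- the cocycle of the symmetric tensors -/
def aa (y : X) (m : ℕ) (u : E2) : (E2 →L[ℝ] E2) →L[ℝ] (E2 →L[ℝ] E2) :=
  conjT (Sx L (fr L y m) (ts L) u)

theorem fr_zero (y : X) : fr L y 0 = y := by
  unfold fr
  rw [Nat.cast_zero, zero_mul, L.φ_zero]

theorem fr_succ (y : X) (m : ℕ) : fr L y (m + 1) = L.φ (ts L) (fr L y m) := by
  unfold fr
  rw [← L.φ_add]
  congr 1
  push_cast
  ring

theorem em_fr (y : X) (m : ℕ) : L.em (fr L y m) = L.em y := L.em_φ _ _

theorem ep_fr (y : X) (m : ℕ) : L.ep (fr L y m) = L.ep y := Orb.ep_φ' _ _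

theorem lv_fr (y : X) (m : ℕ) : L.lv (fr L y m) = L.lv y + m * ts L := L.lv_φ _ _

theorem stp_eq (y : X) {n s : ℕ} (h : s ≤ n) : stp L y n s = fr L y (n - s) := by
  unfold stp fr
  rw [Nat.cast_sub h]

theorem tt_eq (y : X) (m : ℕ) : tt L y m = L.τ (L.φ (ts L) (fr L y m)) (fr L y m) := by
  unfold tt
  rw [fr_succ]

theorem tt_mem (y : X) (m : ℕ) {u : E2} (hu : u ∈ closedBall (0 : E2) 3) :
    tt L y m u ∈ ball (0 : E2) 1 := by
  rw [tt_eq]
  exact tau_step_mem L (t1_le_ts L) _ hu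

theorem e_tt (y : X) (m : ℕ) {u : E2} (hu : u ∈ closedBall (0 : E2) 3) :
    L.e (fr L y m) (tt L y m u) = L.e (fr L y (m + 1)) u := by
  rw [tt_eq, fr_succ]
  exact e_tau_step L (t1_le_ts L) _ hu

theorem tt_smooth (y : X) (m : ℕ) : ContDiffOn ℝ ∞ (tt L y m) (ball (0 : E2) 3) := by
  rw [tt_eq]
  exact tau_step_smooth L (t1_le_ts L) _

/-- the discs are nested -/
theorem e_fr_mem (y : X) (m : ℕ) : ∀ u ∈ closedBall (0 : E2) 3,
    ∃ v ∈ closedBall (0 : E2) 3, L.e y v = L.e (fr L y m) u := by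
  induction m with
  | zero => intro u hu; exact ⟨u, hu, by rw [fr_zero]⟩
  | succ m ih =>
    intro u hu
    have h1 := tt_mem L y m hu
    obtain ⟨v, hv, he⟩ := ih _ (ball_subset_closedBall (ball_subset_ball (by norm_num) h1))
    exact ⟨v, hv, he.trans (e_tt L y m hu)⟩

/-- the discs of positive index are inside the unit disc -/
theorem e_fr_mem' (y : X) (m : ℕ) : ∀ u ∈ closedBall (0 : E2) 3,
    ∃ v ∈ ball (0 : E2) 1, L.e y v = L.e (fr L y (m + 1)) u := by
  induction m with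
  | zero =>
    intro u hu
    refine ⟨tt L y 0 u, tt_mem L y 0 hu, ?_⟩
    have := e_tt L y 0 hu
    rwa [fr_zero] at this
  | succ m ih =>
    intro u hu
    have h1 := tt_mem L y (m + 1) hu
    obtain ⟨v, hv, he⟩ := ih _ (ball_subset_closedBall (ball_subset_ball (by norm_num) h1))
    exact ⟨v, hv, he.trans (e_tt L y (m + 1) hu)⟩

variable {L}

/-- Lemma R in the form `LemR` -/
theorem lemR_gen {F : Type} [NormedAddCommGroup F] [NormedSpace ℝ F] (y : X)
    (A : ℕ → E2 → F →L[ℝ] F) (hA : ∀ k : ℕ, ∃ c : ℝ, ∀ m, CkB k 2 c (A m)) {B₀ : ℝ}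
    (hB : 1 ≤ B₀) :
    ∃ k₀ : ℕ, ∀ k ≥ k₀, LemR (ball (0 : E2) 2) (ball 0 1) k (tt L y) A B₀ := by
  obtain ⟨a, ha⟩ := hA 0
  obtain ⟨k₀, hk₀⟩ := lemma_R_leaf L a (Real.log B₀)
  refine ⟨k₀, fun k hk M => ?_⟩
  obtain ⟨c, hc⟩ := hA k
  obtain ⟨C, hC1, hC⟩ := hk₀ k hk c
  refine ⟨C * (|M| * B₀), fun n Z Err hZ hE hrel hZ0 hE0 hZi j hj u hu => ?_⟩
  have hB0 : 0 < B₀ := by linarith
  have hexp : ∀ s : ℕ, Real.exp (Real.log B₀ * s) = B₀ ^ s := by
    intro s
    rw [mul_comm, Real.exp_nat_mul, Real.exp_log hB0]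
  have hMB : ∀ (s : ℕ), M * B₀ ^ s ≤ |M| * B₀ * B₀ ^ s := by
    intro s
    have h1 : 0 < B₀ ^ s := pow_pos hB0 s
    have h2 : M ≤ |M| * B₀ := (le_abs_self M).trans (le_mul_of_one_le_right (abs_nonneg _) hB)
    exact mul_le_mul_of_nonneg_right h2 h1.le
  have key := hC F y n (|M| * B₀) (fun s => Z (n - s)) (fun s => Err (n - s - 1))
    (fun s => A (n - s - 1)) (by positivity) (fun s hs => hZ _ (by omega))
    (fun s _ u hu => (ha _).norm_le hu) (fun s _ => hc _)
    (by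
      intro s hs v hv
      have h1 := hrel (n - s - 1) (by omega) v hv
      have e1 : n - s - 1 + 1 = n - s := by omega
      rw [e1] at h1
      have e2 : L.τ (stp L y n s) (stp L y n (s + 1)) = tt L y (n - s - 1) := by
        unfold tt
        rw [stp_eq L y hs.le, stp_eq L y (Nat.succ_le_of_lt hs), e1]
        congr 1
      rw [e2]
      have e3 : n - (s + 1) = n - s - 1 := by omega
      rw [e3]
      exact h1)
    (by
      intro s hs v hv
      rw [hexp]
      have e1 : n - (n - s) = s := by omega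
      have h1 := hZ0 (n - s) (by omega) v hv
      rw [e1] at h1
      exact h1.trans (hMB s))
    (by
      intro s hs
      refine ⟨hE _ (by omega), fun i hi v hv => ?_⟩
      rw [hexp]
      have e1 : n - (n - s - 1) = s + 1 := by omega
      have h1 := hE0 (n - s - 1) (by omega) i hi v hv
      rw [e1] at h1
      refine h1.trans ?_
      rw [pow_succ']
      have h2 : 0 < B₀ ^ s := pow_pos hB0 s
      calc M * (B₀ * B₀ ^ s) ≤ |M| * (B₀ * B₀ ^ s) :=
            mul_le_mul_of_nonneg_right (le_abs_self M) (by positivity)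
        _ = |M| * B₀ * B₀ ^ s := by ring)
    (by
      have e1 : n - n = 0 := by omega
      simp only [e1]
      refine ⟨hZ 0 (Nat.zero_le _), fun i hi v hv => ?_⟩
      rw [hexp]
      exact (hZi i hi v hv).trans (hMB n))
    0 (Nat.zero_le _)
  have h1 := key.2 j hj u (ball_subset_ball (by norm_num) hu)
  simpa using h1

theorem lemR_id (F : Type) [NormedAddCommGroup F] [NormedSpace ℝ F] (y : X) {B₀ : ℝ}
    (hB : 1 ≤ B₀) : ∃ k₀ : ℕ, ∀ k ≥ k₀, LemR (ball (0 : E2) 2) (ball 0 1) k (tt L y)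
      (fun _ _ => ContinuousLinearMap.id ℝ F) B₀ := by
  refine lemR_gen y _ (fun k => ⟨1, fun m => ⟨contDiffOn_const, fun i _ u _ => ?_⟩⟩) hB
  rcases Nat.eq_zero_or_pos i with h | h
  · subst h
    rw [norm_iteratedFDeriv_zero]
    exact ContinuousLinearMap.norm_id_le
  · rw [iteratedFDeriv_const_of_ne (by omega)]
    simp

theorem lemR_tens (y : X) {B₀ : ℝ} (hB : 1 ≤ B₀) : ∃ k₀ : ℕ, ∀ k ≥ k₀,
    LemR (ball (0 : E2) 2) (ball 0 1) k (tt L y) (aa L y) B₀ := by
  refine lemR_gen y _ (fun k => ?_) hB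
  obtain ⟨c, -, hc⟩ := conjT_CkB L k (ts L)
  exact ⟨c, fun m => hc _ _ ⟨t1_le_ts L, le_rfl⟩⟩

/-- the derivatives of the steps are bounded -/
theorem tt_bd (y : X) : ∃ K, ∀ m, ∀ u ∈ ball (0 : E2) 2,
    DifferentiableAt ℝ (tt L y m) u ∧ ‖fderiv ℝ (tt L y m) u‖ ≤ K := by
  refine ⟨1 / 2, fun m u hu => ⟨?_, ?_⟩⟩
  · have h3 : u ∈ ball (0 : E2) 3 := ball_subset_ball (by norm_num) hu
    exact ((tt_smooth L y m).contDiffAt (isOpen_ball.mem_nhds h3)).differentiableAt (by simp)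
  · rw [tt_eq]
    exact norm_fderiv_tau_step_le L le_rfl _ (ball_subset_ball (by norm_num) hu)

end Vale.Agent.P207.N3.H80
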