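import Vale.Agent.P207.N3.H80.Lin
import Vale.Agent.P207.N3.H545.Lim

/-!
# P207, line N3, package P13 (4.1 START): uniform bounds along the unit steps of a leaf

`s_bd`, `s_low`, `sinv_bd` : the density; `dF_decay`, `fun_CkB` : a smooth function of the leaf on
the discs `fr L y m`; `exists_limit_frame` : limits of `N`; `exists_start` : small discs around a
given point of the leaf.
-/

set_option maxSynthPendingDepth 3

open Set Filter Topology Metric
open scoped ContDiff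

noncomputable section

namespace Vale.Agent.P207.N3.H80

open Vale.Agent.P207.N3.H545

variable {Γ X B : Type} [Group Γ] [MetricSpace X] [ProperSpace X] [MulAction Γ X]
  [IsIsometricSMul Γ X] [TopologicalSpace B] [CompactSpace B] [T2Space B] [MulAction Γ B]
  [ContinuousConstSMul Γ B]

variable {L : Leaf Γ X B}

theorem cb23 : closedBall (0 : E2) 2 ⊆ ball 0 3 := closedBall_subset_ball (by norm_num)

theorem b23 : ball (0 : E2) 2 ⊆ ball 0 3 := ball_subset_ball (by norm_num)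

/-! ### the density -/

section Dens

variable [MeasurableSpace B] [BorelSpace B] (A : Area L)

theorem s_bd (k : ℕ) : ∃ C : ℝ, 0 ≤ C ∧ ∀ x, CkB k 2 C (A.s x) := by
  obtain ⟨K, hK, hKΓ⟩ := L.cocompact
  have hcomp : IsCompact (K ×ˢ closedBall (0 : E2) 2) := hK.prod (isCompact_closedBall _ _)
  have hb : ∀ j : ℕ, ∃ C, ∀ x, ∀ u ∈ closedBall (0 : E2) 2, ‖iteratedFDeriv ℝ j (A.s x) u‖ ≤ C := by
    intro j
    obtain ⟨C, hC⟩ := hcomp.exists_bound_of_continuousOn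
      ((A.s_cont j).mono (fun p hp => ⟨mem_univ _, cb23 hp.2⟩))
    refine ⟨C, fun x u hu => ?_⟩
    obtain ⟨g, hg⟩ := hKΓ x
    have h1 := hC (g • x, u) ⟨hg, hu⟩
    have h2 : A.s (g • x) =ᶠ[𝓝 u] A.s x := by
      filter_upwards [isOpen_ball.mem_nhds (cb23 hu)] with v hv using A.s_smul g x v hv
    simp only at h1
    rwa [(Filter.EventuallyEq.iteratedFDeriv (𝕜 := ℝ) h2 j).eq_of_nhds] at h1
  choose C hC using hb
  refine ⟨∑ i ∈ Finset.range (k + 1), |C i|, Finset.sum_nonneg fun _ _ => abs_nonneg _,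
    fun x => ⟨((A.s_smooth x).mono b23).of_le (by exact_mod_cast le_top), fun i hi u hu => ?_⟩⟩
  refine (hC i x u (ball_subset_closedBall hu)).trans ((le_abs_self _).trans ?_)
  exact Finset.single_le_sum (f := fun i => |C i|) (fun _ _ => abs_nonneg _)
    (Finset.mem_range.mpr (Nat.lt_succ_of_le hi))

theorem s_low : ∃ c > 0, ∀ x, ∀ u ∈ closedBall (0 : E2) 2, c ≤ A.s x u := by
  obtain ⟨K, hK, hKΓ⟩ := L.cocompact
  have hcomp : IsCompact (K ×ˢ closedBall (0 : E2) 2) := hK.prod (isCompact_closedBall _ _)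
  have h0 := (A.s_cont 0).mono
    (fun p (hp : p ∈ K ×ˢ closedBall (0 : E2) 2) => ⟨mem_univ _, cb23 hp.2⟩)
  have h1 : ContinuousOn (fun p : X × E2 => A.s p.1 p.2) (K ×ˢ closedBall (0 : E2) 2) := by
    have h2 := (ContinuousMultilinearMap.apply ℝ (fun _ : Fin 0 => E2) ℝ
      (fun i => i.elim0)).continuous.comp_continuousOn h0
    refine h2.congr fun p _ => ?_
    simp [iteratedFDeriv_zero_apply]
  have h3 : ContinuousOn (fun p : X × E2 => (A.s p.1 p.2)⁻¹) (K ×ˢ closedBall (0 : E2) 2) :=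
    h1.inv₀ fun p hp => (A.s_pos p.1 p.2 (cb23 hp.2)).ne'
  obtain ⟨C, hC⟩ := hcomp.exists_bound_of_continuousOn h3
  refine ⟨(|C| + 1)⁻¹, by positivity, fun x u hu => ?_⟩
  obtain ⟨g, hg⟩ := hKΓ x
  have h4 := hC (g • x, u) ⟨hg, hu⟩
  have h5 := A.s_pos x u (cb23 hu)
  simp only at h4
  rw [A.s_smul g x u (cb23 hu), Real.norm_eq_abs, abs_of_pos (inv_pos.2 h5)] at h4
  have h6 : (A.s x u)⁻¹ ≤ |C| + 1 := by
    have := le_abs_self C
    linarith
  have h7 : 0 < (A.s x u)⁻¹ := inv_pos.2 h5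
  have h8 := inv_anti₀ h7 h6
  rwa [inv_inv] at h8

theorem sinv_bd (k : ℕ) : ∃ C : ℝ, 0 ≤ C ∧ ∀ x, CkB k 2 C (fun u => ((A.s x u)⁻¹) ^ 2) := by
  obtain ⟨Cs, hCs0, hCs⟩ := s_bd A k
  obtain ⟨c, hc0, hc⟩ := s_low A
  set g : ℝ → ℝ := fun t => (t⁻¹) ^ 2 with hg
  have hgs : ∀ t : ℝ, t ≠ 0 → ContDiffAt ℝ ∞ g t := fun t ht =>
    (contDiffAt_inv ℝ ht).pow 2
  have hb : ∀ j : ℕ, ∃ C, ∀ t ∈ Icc c Cs, ‖iteratedFDeriv ℝ j g t‖ ≤ C := by
    intro j
    refine isCompact_Icc.exists_bound_of_continuousOn fun t ht => ?_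
    have h1 : ContDiffAt ℝ 0 (iteratedFDeriv ℝ j g) t :=
      (hgs t (hc0.trans_le ht.1).ne').iteratedFDeriv_right (m := 0) (by
        rw [zero_add]; exact_mod_cast le_top)
    exact h1.continuousAt.continuousWithinAt
  choose C hC using hb
  set C₀ : ℝ := ∑ i ∈ Finset.range (k + 1), |C i| with hC₀
  have hC₀0 : 0 ≤ C₀ := Finset.sum_nonneg fun _ _ => abs_nonneg _
  have hCC : ∀ i ≤ k, C i ≤ C₀ := fun i hi => (le_abs_self _).trans
    (Finset.single_le_sum (f := fun i => |C i|) (fun _ _ => abs_nonneg _)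
      (Finset.mem_range.mpr (Nat.lt_succ_of_le hi)))
  set D : ℝ := max Cs 1 with hD
  have hD1 : 1 ≤ D := le_max_right _ _
  refine ⟨k.factorial * C₀ * D ^ k, by positivity, fun x => ?_⟩
  have hsm : ∀ u ∈ ball (0 : E2) 2, ContDiffAt ℝ ∞ (A.s x) u := fun u hu =>
    (A.s_smooth x u (b23 hu)).contDiffAt (isOpen_ball.mem_nhds (b23 hu))
  have hpos : ∀ u ∈ ball (0 : E2) 2, A.s x u ≠ 0 := fun u hu => (A.s_pos x u (b23 hu)).ne'
  refine ⟨fun u hu => ?_, fun i hi u hu => ?_⟩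
  · have h1 : ContDiffAt ℝ ∞ (fun u => ((A.s x u)⁻¹) ^ 2) u :=
      ContDiffAt.comp u (hgs _ (hpos u hu)) (hsm u hu)
    exact (h1.of_le (by exact_mod_cast le_top)).contDiffWithinAt
  · have h0 : A.s x u ∈ Icc c Cs := by
      refine ⟨hc x u (ball_subset_closedBall hu), ?_⟩
      have := (hCs x).norm_le hu
      rw [Real.norm_eq_abs] at this
      exact (le_abs_self _).trans this
    have h1 := norm_iteratedFDeriv_comp_at_le (g := g) (f := A.s x) (x := u) (n := i) (C := C₀)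
      (D := D) ((hgs _ (hpos u hu)).of_le (by exact_mod_cast le_top))
      ((hsm u hu).of_le (by exact_mod_cast le_top))
      (fun j hj => (hC j _ h0).trans (hCC j (hj.trans hi)))
      (fun j h1 hj => ((hCs x).2 j (hj.trans hi) u hu).trans ((le_max_left _ _).trans
        (le_self_pow₀ hD1 (by omega))))
    refine h1.trans ?_
    have e1 : (i.factorial : ℝ) ≤ k.factorial := by exact_mod_cast Nat.factorial_le hi
    have e2 : D ^ i ≤ D ^ k := pow_le_pow_right₀ hD1 hi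
    gcongr

end Dens

/-! ### functions -/

theorem mem_dm_fr (y : X) (m : ℕ) {u : E2} (hu : u ∈ ball (0 : E2) 3) :
    u ∈ L.dm (fr L y (m + 1)) (fr L y m) := by
  rw [fr_succ, dm_step L (t1_le_ts L)]
  exact hu

theorem fderiv_tt_le (y : X) (m : ℕ) {u : E2} (hu : u ∈ ball (0 : E2) 3) :
    ‖fderiv ℝ (tt L y m) u‖ ≤ 1 / 2 := by
  rw [tt_eq]
  exact norm_fderiv_tau_step_le L le_rfl _ hu

theorem dF_decay {F : B → ℝ} {y : X} (hF : L.SmoothOn (L.em y) F) :
    ∃ C, 0 ≤ C ∧ ∀ m, ∀ u ∈ ball (0 : E2) 2, ‖dF L F (fr L y m) u‖ ≤ C * (1 / 2) ^ m := by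
  obtain ⟨C, hC0, hC⟩ := exists_CkB_of_contDiffOn (k := 1) (show (2 : ℝ) < 3 by norm_num)
    ((hF y rfl).of_le (by exact_mod_cast le_top))
  refine ⟨C, hC0, fun m => ?_⟩
  induction m with
  | zero =>
    intro u hu
    have h1 := hC.2 1 le_rfl u hu
    rw [norm_iteratedFDeriv_one] at h1
    unfold dF
    rw [fr_zero, pow_zero, mul_one]
    exact h1
  | succ m ih =>
    intro u hu
    have h1 := dF_trans hF (em_fr L y (m + 1)) (em_fr L y m) (mem_dm_fr y m (b23 hu))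
    have h2 := ih (tt L y m u) (ball_subset_ball (by norm_num)
      (tt_mem L y m (ball_subset_closedBall (b23 hu))))
    have h3 := fderiv_tt_le (L := L) y m (b23 hu)
    rw [h1]
    refine (ContinuousLinearMap.opNorm_comp_le _ _).trans ?_
    calc ‖dF L F (fr L y m) (tt L y m u)‖ * ‖fderiv ℝ (tt L y m) u‖
        ≤ (C * (1 / 2) ^ m) * (1 / 2) := mul_le_mul h2 h3 (norm_nonneg _) (by positivity)
      _ = C * (1 / 2) ^ (m + 1) := by rw [pow_succ]; ring

theorem fun_CkB {F : B → ℝ} {y : X} (hF : L.SmoothOn (L.em y) F) (k : ℕ) :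
    ∃ C, 0 ≤ C ∧ ∀ m, CkB k 2 C (fun u => F (L.e (fr L y m) u)) := by
  obtain ⟨k₀, hk₀⟩ := fun_R L 0
  obtain ⟨C, hC1, hC⟩ := hk₀ (max k k₀) (le_max_right _ _)
  obtain ⟨M, hM0, hM⟩ := exists_CkB_of_contDiffOn (k := max k k₀) (show (2 : ℝ) < 3 by norm_num)
    ((hF y rfl).of_le (by exact_mod_cast le_top))
  refine ⟨C * M, by positivity, fun m => ?_⟩
  have hval : ∀ j, ∀ u ∈ ball (0 : E2) 2, ‖F (L.e (fr L y j) u)‖ ≤ M := by
    intro j u hu
    cases j with
    | zero => rw [fr_zero]; exact hM.norm_le hu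
    | succ j =>
      obtain ⟨v, hv, he⟩ := e_fr_mem' L y j u (ball_subset_closedBall (b23 hu))
      rw [← he]
      exact hM.norm_le (ball_subset_ball (by norm_num) hv)
  have key := hC ℝ F 0 y m M hM0
    (by
      intro s hs u hu
      rw [stp_eq L y hs, sub_zero, zero_mul, Real.exp_zero, mul_one]
      exact hval _ u hu)
    (by
      simp only [sub_zero, zero_mul, Real.exp_zero, mul_one]
      exact hM) 0 (Nat.zero_le _)
  rw [stp_eq L y (Nat.zero_le m)] at key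
  simp only [sub_zero, Nat.sub_zero, zero_mul, Real.exp_zero, mul_one] at key
  exact key.mono (le_max_left _ _) le_rfl le_rfl

/-! ### limits of frames -/

theorem exists_limit_frame (T : Tens L) {y : ℕ → X} {Nh : E2 → E2 →L[ℝ] E2}
    (h : ∀ u ∈ ball (0 : E2) 1, Tendsto (fun n => T.N (y n) u) atTop (𝓝 (Nh u))) :
    ∃ w, ∀ u ∈ ball (0 : E2) 1, T.N w u = Nh u := by
  obtain ⟨K, hK, hKΓ⟩ := L.cocompact
  choose g hg using fun n => hKΓ (y n)
  obtain ⟨w, -, φ, hφ, hw⟩ := hK.tendsto_subseq hg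
  refine ⟨w, fun u hu => ?_⟩
  have h1 := tendsto_N T (y := fun n => y (φ n)) (g := fun n => g (φ n)) hw (v := fun _ => u)
    tendsto_const_nhds (ball_subset_ball (by norm_num : (1 : ℝ) ≤ 3) hu)
  exact tendsto_nhds_unique h1 ((h u hu).comp hφ.tendsto_atTop)

/-! ### small discs -/

theorem tt_zero (y : X) (m : ℕ) : tt L y m 0 = 0 := by
  unfold tt
  refine tau_eq_of L (mem_closedBall_self (by norm_num)) ?_
  rw [L.e_zero, L.e_zero, ep_fr, ep_fr]

theorem norm_tt_le (y : X) (m : ℕ) {u : E2} (hu : u ∈ ball (0 : E2) 3) :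
    ‖tt L y m u‖ ≤ 1 / 2 * ‖u‖ := by
  have h1 := (convex_ball (0 : E2) 3).norm_image_sub_le_of_norm_fderiv_le (𝕜 := ℝ)
    (f := tt L y m) (C := 1 / 2)
    (fun v hv => ((tt_smooth L y m).contDiffAt (isOpen_ball.mem_nhds hv)).differentiableAt
      (by simp)) (fun v hv => fderiv_tt_le y m hv)
    (mem_ball_self (by norm_num : (0 : ℝ) < 3)) hu
  simpa [tt_zero] using h1

theorem e_fr_small (y : X) (m : ℕ) : ∀ u ∈ ball (0 : E2) 1,
    ∃ v : E2, ‖v‖ ≤ (1 / 2) ^ m * ‖u‖ ∧ L.e y v = L.e (fr L y m) u := by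
  induction m with
  | zero => intro u _; exact ⟨u, by simp, by rw [fr_zero]⟩
  | succ m ih =>
    intro u hu
    have h3 : u ∈ ball (0 : E2) 3 := ball_subset_ball (by norm_num) hu
    have h1 := tt_mem L y m (ball_subset_closedBall h3)
    obtain ⟨v, hv, he⟩ := ih _ h1
    refine ⟨v, hv.trans ?_, he.trans (e_tt L y m (ball_subset_closedBall h3))⟩
    have h2 := norm_tt_le (L := L) y m h3
    calc (1 / 2 : ℝ) ^ m * ‖tt L y m u‖ ≤ (1 / 2) ^ m * (1 / 2 * ‖u‖) := by gcongr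
      _ = _ := by rw [pow_succ]; ring

/-- small discs around the point with coordinate `v` -/
theorem exists_start {o : Orb L} (n : Nor L o) (v : E2) {ε : ℝ} (hε : 0 < ε) :
    ∃ y, L.em y = o.neg ∧ n.x (L.ep y) = v ∧
      ∀ u ∈ closedBall (0 : E2) 3, ‖n.x (L.e y u) - v‖ < ε := by
  obtain ⟨y₀, h1, h2, -⟩ := L.exists_frame o.neg (n.inv v) (n.inv_ne v).symm 0
  have h3 : n.x (L.ep y₀) = v := by rw [h2, n.inv_right]
  have hc : ContinuousAt (fun u => n.x (L.e y₀ u)) 0 :=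
    ((n.smooth y₀ h1).contDiffAt (isOpen_ball.mem_nhds (mem_ball_self (by norm_num)))).continuousAt
  have hc2 : ∀ᶠ u in 𝓝 (0 : E2), ‖n.x (L.e y₀ u) - v‖ < ε := by
    have h4 : n.x (L.e y₀ 0) = v := by rw [L.e_zero]; exact h3
    have h5 := Metric.tendsto_nhds.1 hc.tendsto ε hε
    filter_upwards [h5] with u hu
    rwa [h4, dist_eq_norm] at hu
  obtain ⟨δ, hδ, hball⟩ := Metric.eventually_nhds_iff_ball.1 hc2
  obtain ⟨m, hm⟩ := exists_pow_lt_of_lt_one hδ (show (1 / 2 : ℝ) < 1 by norm_num)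
  refine ⟨fr L y₀ (m + 1), (em_fr L y₀ _).trans h1, by rw [ep_fr]; exact h3, fun u hu => ?_⟩
  have h4 := tt_mem L y₀ m hu
  obtain ⟨w, hw, he⟩ := e_fr_small (L := L) y₀ m _ h4
  rw [← e_tt L y₀ m hu, ← he]
  refine hball w ?_
  rw [mem_ball_zero_iff]
  rw [mem_ball_zero_iff] at h4
  calc ‖w‖ ≤ (1 / 2) ^ m * ‖tt L y₀ m u‖ := hw
    _ ≤ (1 / 2) ^ m * 1 := by gcongr
    _ < δ := by rw [mul_one]; exact hm

end Vale.Agent.P207.N3.H80
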