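import Mathlib

/-!
# P207, line N3, package P13 (helper80): the one variable cohomological step

If `g (μ s) = ν g s + S s` near `0`, with `S` smooth, then `g` is, up to a smooth function, the
restriction of a function `G` on the whole line with `G (μ s) = ν G s + P s`, `P` a polynomial.
-/

open Set Filter Topology Metric
open scoped ContDiff

noncomputable section

namespace Vale.Agent.P207.N3.H80

theorem mem_sym {s r : ℝ} : s ∈ Ioo (-r) r ↔ |s| < r := abs_lt.symm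

/-- vanishing of order `K` at `0` -/
def Flat : ℕ → (ℝ → ℝ) → Prop
  | 0, _ => True
  | K + 1, S => S 0 = 0 ∧ Flat K (deriv S)

theorem contDiff_deriv_top {S : ℝ → ℝ} (hS : ContDiff ℝ ∞ S) : ContDiff ℝ ∞ (deriv S) := by
  have h : ContDiff ℝ (∞ + 1) S := hS
  exact (contDiff_succ_iff_deriv.1 h).2.2

theorem flat_bound (K : ℕ) : ∀ {S : ℝ → ℝ}, ContDiff ℝ ∞ S → Flat K S → ∀ R : ℝ,
    ∃ C : ℝ, 0 ≤ C ∧ ∀ t, |t| ≤ R → |S t| ≤ C * |t| ^ K := by
  induction K with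
  | zero =>
    intro S hS _ R
    obtain ⟨C, hC⟩ := (isCompact_Icc (a := -R) (b := R)).exists_bound_of_continuousOn
      hS.continuous.continuousOn
    refine ⟨max C 0, le_max_right _ _, fun t ht => ?_⟩
    have := hC t (abs_le.1 ht)
    rw [Real.norm_eq_abs] at this
    simpa using Or.inl this
  | succ K ih =>
    intro S hS hF R
    obtain ⟨C, hC0, hC⟩ := ih (contDiff_deriv_top hS) hF.2 R
    refine ⟨C, hC0, fun t ht => ?_⟩
    have hd : ∀ x ∈ closedBall (0 : ℝ) |t|, DifferentiableAt ℝ S x := fun x _ =>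
      hS.differentiable (by simp) x
    have hb : ∀ x ∈ closedBall (0 : ℝ) |t|, ‖deriv S x‖ ≤ C * |t| ^ K := by
      intro x hx
      have hx' : |x| ≤ |t| := by simpa using hx
      refine (hC x (hx'.trans ht)).trans ?_
      gcongr
    have h1 := (convex_closedBall (0 : ℝ) |t|).norm_image_sub_le_of_norm_deriv_le hd hb
      (mem_closedBall_self (abs_nonneg _)) (show t ∈ closedBall (0 : ℝ) |t| by simp)
    rw [hF.1, sub_zero, sub_zero, Real.norm_eq_abs, Real.norm_eq_abs] at h1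
    refine h1.trans (le_of_eq ?_)
    ring

/-- the series solving the cohomological equation -/
def ser (μ ν : ℝ) (S : ℝ → ℝ) (s : ℝ) : ℝ := ∑' i : ℕ, ν ^ i * S (μ⁻¹ ^ (i + 1) * s)

variable {μ ν : ℝ}

theorem term_bound (hμ : 1 < |μ|) {K : ℕ} {S : ℝ → ℝ} {R C : ℝ}
    (hC : ∀ t, |t| ≤ R → |S t| ≤ C * |t| ^ K) {s : ℝ} (hs : |s| ≤ R) (hC0 : 0 ≤ C) (i : ℕ) :
    |ν ^ i * S (μ⁻¹ ^ (i + 1) * s)| ≤ (C * R ^ K) * (|ν| / |μ| ^ K) ^ i := by
  have hμ0 : 0 < |μ| := by linarith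
  have hinv : |μ|⁻¹ ≤ 1 := inv_le_one_of_one_le₀ hμ.le
  have hR0 : 0 ≤ R := (abs_nonneg _).trans hs
  have h1 : |μ⁻¹ ^ (i + 1) * s| = |μ|⁻¹ ^ (i + 1) * |s| := by
    rw [abs_mul, abs_pow, abs_inv]
  have h2 : |μ⁻¹ ^ (i + 1) * s| ≤ |μ|⁻¹ ^ i * R := by
    rw [h1, pow_succ]
    have : |μ|⁻¹ ^ i * |μ|⁻¹ ≤ |μ|⁻¹ ^ i * 1 := by gcongr
    calc |μ|⁻¹ ^ i * |μ|⁻¹ * |s| ≤ |μ|⁻¹ ^ i * 1 * R := by gcongr
      _ = _ := by ring
  have h3 : |μ|⁻¹ ^ i ≤ 1 := pow_le_one₀ (by positivity) hinv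
  have h4 : |μ⁻¹ ^ (i + 1) * s| ≤ R := by
    refine h2.trans ?_
    calc |μ|⁻¹ ^ i * R ≤ 1 * R := by gcongr
      _ = R := one_mul _
  rw [abs_mul, abs_pow]
  calc |ν| ^ i * |S (μ⁻¹ ^ (i + 1) * s)| ≤ |ν| ^ i * (C * |μ⁻¹ ^ (i + 1) * s| ^ K) := by
        gcongr
        exact hC _ h4
    _ ≤ |ν| ^ i * (C * (|μ|⁻¹ ^ i * R) ^ K) := by gcongr
    _ = (C * R ^ K) * (|ν| / |μ| ^ K) ^ i := by
        rw [mul_pow, ← pow_mul, mul_comm i K, pow_mul, inv_pow, div_eq_mul_inv, mul_pow]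
        ring

theorem ratio_lt (hμ : 1 < |μ|) {K : ℕ} (hK : |ν| < |μ| ^ K) : |ν| / |μ| ^ K < 1 := by
  have hμ0 : 0 < |μ| := by linarith
  rw [div_lt_one (by positivity)]
  exact hK

theorem ser_summable (hμ : 1 < |μ|) {K : ℕ} (hK : |ν| < |μ| ^ K) {S : ℝ → ℝ}
    (hS : ContDiff ℝ ∞ S) (hF : Flat K S) (s : ℝ) :
    Summable fun i : ℕ => ν ^ i * S (μ⁻¹ ^ (i + 1) * s) := by
  obtain ⟨C, hC0, hC⟩ := flat_bound K hS hF |s|
  have hμ0 : 0 < |μ| := by linarith
  refine Summable.of_norm_bounded (g := fun i : ℕ => (C * |s| ^ K) * (|ν| / |μ| ^ K) ^ i) ?_ ?_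
  · exact (summable_geometric_of_lt_one (by positivity) (ratio_lt hμ hK)).mul_left _
  · intro i
    exact term_bound hμ hC le_rfl hC0 i

theorem step_lt (hμ : 1 < |μ|) {K : ℕ} (hK : |ν| < |μ| ^ K) : |ν / μ| < |μ| ^ (K - 1) := by
  have hμ0 : 0 < |μ| := by linarith
  rw [abs_div, div_lt_iff₀ hμ0]
  cases K with
  | zero =>
    simp only [pow_zero] at hK
    simp only [zero_tsub, pow_zero, one_mul]
    linarith
  | succ K => simpa [pow_succ] using hK

theorem flat_step {K : ℕ} {S : ℝ → ℝ} (hF : Flat K S) : Flat (K - 1) (deriv S) := by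
  cases K with
  | zero => trivial
  | succ K => exact hF.2

theorem ser_hasDerivAt (hμ : 1 < |μ|) {K : ℕ} (hK : |ν| < |μ| ^ K) {S : ℝ → ℝ}
    (hS : ContDiff ℝ ∞ S) (hF : Flat K S) (s : ℝ) :
    HasDerivAt (ser μ ν S) (μ⁻¹ * ser μ (ν / μ) (deriv S) s) s := by
  have hμ0 : 0 < |μ| := by linarith
  have hμne : μ ≠ 0 := abs_pos.1 hμ0
  set R : ℝ := |s| + 1 with hR
  obtain ⟨C, hC0, hC⟩ := flat_bound (K - 1) (contDiff_deriv_top hS) (flat_step hF) R
  have hterm : ∀ (i : ℕ) (y : ℝ), HasDerivAt (fun z => ν ^ i * S (μ⁻¹ ^ (i + 1) * z))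
      (μ⁻¹ * ((ν / μ) ^ i * deriv S (μ⁻¹ ^ (i + 1) * y))) y := by
    intro i y
    have h1 : HasDerivAt (fun z : ℝ => μ⁻¹ ^ (i + 1) * z) (μ⁻¹ ^ (i + 1)) y := by
      simpa using (hasDerivAt_id y).const_mul (μ⁻¹ ^ (i + 1))
    have h2 : HasDerivAt S (deriv S (μ⁻¹ ^ (i + 1) * y)) (μ⁻¹ ^ (i + 1) * y) :=
      (hS.differentiable (by simp) _).hasDerivAt
    have h3 := (h2.comp y h1).const_mul (ν ^ i)
    refine h3.congr_deriv ?_
    rw [div_eq_mul_inv, mul_pow, pow_succ]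
    ring
  have hu : Summable fun i : ℕ => |μ|⁻¹ * ((C * R ^ (K - 1)) * (|ν / μ| / |μ| ^ (K - 1)) ^ i) :=
    ((summable_geometric_of_lt_one (by positivity)
      (ratio_lt hμ (step_lt hμ hK))).mul_left _).mul_left _
  have hs0 : s ∈ ball (0 : ℝ) R := by
    rw [mem_ball_zero_iff, Real.norm_eq_abs, hR]; linarith
  have h := hasDerivAt_tsum_of_isPreconnected (g := fun (i : ℕ) z => ν ^ i * S (μ⁻¹ ^ (i + 1) * z))
    (g' := fun (i : ℕ) y => μ⁻¹ * ((ν / μ) ^ i * deriv S (μ⁻¹ ^ (i + 1) * y)))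
    (t := ball (0 : ℝ) R) (y := s) (y₀ := s) hu isOpen_ball
    (convex_ball (0 : ℝ) R).isPreconnected (fun i y _ => hterm i y) ?_ hs0
    (ser_summable hμ hK hS hF s) hs0
  · rw [tsum_mul_left] at h
    exact h
  · intro i y hy
    have hy' : |y| ≤ R := by
      rw [mem_ball_zero_iff, Real.norm_eq_abs] at hy; exact hy.le
    rw [Real.norm_eq_abs, abs_mul, abs_inv]
    have := term_bound (ν := ν / μ) hμ hC hy' hC0 i
    gcongr

theorem ser_contDiff (hμ : 1 < |μ|) (n : ℕ) : ∀ {K : ℕ} {ν : ℝ} {S : ℝ → ℝ}, |ν| < |μ| ^ K →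
    ContDiff ℝ ∞ S → Flat K S → ContDiff ℝ n (ser μ ν S) := by
  induction n with
  | zero =>
    intro K ν S hK hS hF
    rw [Nat.cast_zero, contDiff_zero]
    exact continuous_iff_continuousAt.2 fun s => (ser_hasDerivAt hμ hK hS hF s).continuousAt
  | succ n ih =>
    intro K ν S hK hS hF
    rw [Nat.cast_succ, contDiff_succ_iff_deriv]
    refine ⟨fun s => (ser_hasDerivAt hμ hK hS hF s).differentiableAt, ?_, ?_⟩
    · intro h
      exact absurd h (by simp)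
    · have h1 : deriv (ser μ ν S) = fun s => μ⁻¹ * ser μ (ν / μ) (deriv S) s :=
        funext fun s => (ser_hasDerivAt hμ hK hS hF s).deriv
      rw [h1]
      exact contDiff_const.mul (ih (step_lt hμ hK) (contDiff_deriv_top hS) (flat_step hF))

theorem ser_smooth (hμ : 1 < |μ|) {K : ℕ} (hK : |ν| < |μ| ^ K) {S : ℝ → ℝ}
    (hS : ContDiff ℝ ∞ S) (hF : Flat K S) : ContDiff ℝ ∞ (ser μ ν S) :=
  contDiff_infty.2 fun n => ser_contDiff hμ n hK hS hF

theorem ser_rel (hμ : 1 < |μ|) {K : ℕ} (hK : |ν| < |μ| ^ K) {S : ℝ → ℝ}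
    (hS : ContDiff ℝ ∞ S) (hF : Flat K S) (s : ℝ) :
    ser μ ν S (μ * s) = ν * ser μ ν S s + S s := by
  have hμ0 : 0 < |μ| := by linarith
  have hμne : μ ≠ 0 := abs_pos.1 hμ0
  have h1 := ser_summable hμ hK hS hF (μ * s)
  have e0 : ser μ ν S (μ * s) = ∑' i : ℕ, ν ^ i * S (μ⁻¹ ^ (i + 1) * (μ * s)) := rfl
  rw [e0, h1.tsum_eq_zero_add]
  have e1 : μ⁻¹ ^ (0 + 1) * (μ * s) = s := by
    rw [zero_add, pow_one, inv_mul_cancel_left₀ hμne]
  have e2 : ∀ i : ℕ, ν ^ (i + 1) * S (μ⁻¹ ^ (i + 1 + 1) * (μ * s)) =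
      ν * (ν ^ i * S (μ⁻¹ ^ (i + 1) * s)) := by
    intro i
    have : μ⁻¹ ^ (i + 1 + 1) * (μ * s) = μ⁻¹ ^ (i + 1) * s := by
      rw [pow_succ μ⁻¹ (i + 1)]; field_simp
    rw [this]; ring
  simp_rw [e2]
  rw [tsum_mul_left, e1]
  simp only [pow_zero, one_mul]
  unfold ser
  ring

theorem exists_antideriv (Q : Polynomial ℝ) :
    ∃ A : Polynomial ℝ, Polynomial.derivative A = Q ∧ A.eval 0 = 0 := by
  induction Q using Polynomial.induction_on' with
  | add p q hp hq =>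
    obtain ⟨A, hA, hA0⟩ := hp
    obtain ⟨A', hA', hA0'⟩ := hq
    exact ⟨A + A', by rw [Polynomial.derivative_add, hA, hA'], by simp [hA0, hA0']⟩
  | monomial n a =>
    refine ⟨Polynomial.monomial (n + 1) (a / (n + 1)), ?_, by simp⟩
    rw [Polynomial.derivative_monomial]
    have : ((n : ℝ) + 1) ≠ 0 := by positivity
    simp only [Nat.cast_add, Nat.cast_one, add_tsub_cancel_right]
    congr 1
    field_simp

theorem exists_taylor (K : ℕ) : ∀ {S : ℝ → ℝ}, ContDiff ℝ ∞ S →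
    ∃ P : Polynomial ℝ, Flat K (fun s => S s - P.eval s) := by
  induction K with
  | zero => exact fun _ => ⟨0, trivial⟩
  | succ K ih =>
    intro S hS
    obtain ⟨Q, hQ⟩ := ih (contDiff_deriv_top hS)
    obtain ⟨A, hA, hA0⟩ := exists_antideriv Q
    refine ⟨Polynomial.C (S 0) + A, by simp [hA0], ?_⟩
    have h1 : deriv (fun s => S s - (Polynomial.C (S 0) + A).eval s) =
        fun s => deriv S s - Q.eval s := by
      funext s
      rw [deriv_fun_sub (hS.differentiable (by simp) s) (Polynomial.differentiable _ s),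
        Polynomial.deriv]
      simp [hA]
    rw [h1]
    exact hQ

/-- **the cohomological equation for smooth functions**, up to a polynomial -/
theorem coh1_global (hμ : 1 < |μ|) (ν : ℝ) {S : ℝ → ℝ} (hS : ContDiff ℝ ∞ S) :
    ∃ (p : ℝ → ℝ) (P : Polynomial ℝ), ContDiff ℝ ∞ p ∧
      ∀ s, p (μ * s) = ν * p s + S s - P.eval s := by
  obtain ⟨K, hK⟩ := pow_unbounded_of_one_lt |ν| hμ
  obtain ⟨P, hP⟩ := exists_taylor K hS
  have hS' : ContDiff ℝ ∞ (fun s => S s - P.eval s) := hS.sub (Polynomial.contDiff_aeval P _)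
  refine ⟨ser μ ν (fun s => S s - P.eval s), P, ser_smooth hμ hK hS' hP, fun s => ?_⟩
  rw [ser_rel hμ hK hS' hP s]
  ring

/-- a smooth function near `0` is the germ of a smooth function on the line -/
theorem exists_germ {δ : ℝ} (hδ : 0 < δ) {S : ℝ → ℝ} (hS : ContDiffOn ℝ ∞ S (Ioo (-δ) δ)) :
    ∃ S' : ℝ → ℝ, ContDiff ℝ ∞ S' ∧ ∀ s ∈ Ioo (-(δ / 3)) (δ / 3), S' s = S s := by
  let f : ContDiffBump (0 : ℝ) := ⟨δ / 3, δ / 2, by positivity, by linarith⟩
  refine ⟨fun s => f s * S s, ?_, fun s hs => ?_⟩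
  · rw [contDiff_iff_contDiffAt]
    intro s
    by_cases h : s ∈ Ioo (-δ) δ
    · exact f.contDiffAt.mul ((hS s h).contDiffAt (Ioo_mem_nhds h.1 h.2))
    · have h1 : (fun s => f s * S s) =ᶠ[𝓝 s] fun _ => 0 := by
        have h2 : s ∈ (closedBall (0 : ℝ) (δ / 2))ᶜ := by
          intro h3
          rw [mem_closedBall_zero_iff, Real.norm_eq_abs, abs_le] at h3
          exact h ⟨by linarith [h3.1], by linarith [h3.2]⟩
        filter_upwards [isClosed_closedBall.isOpen_compl.mem_nhds h2] with t ht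
        have h3 : f t = 0 := by
          refine f.zero_of_le_dist ?_
          have : ¬ dist t 0 ≤ δ / 2 := ht
          exact (not_le.1 this).le
        rw [h3, zero_mul]
      exact contDiffAt_const.congr_of_eventuallyEq h1
  · have h1 : f s = 1 := by
      refine f.one_of_mem_closedBall ?_
      rw [mem_closedBall_zero_iff, Real.norm_eq_abs, abs_le]
      exact ⟨hs.1.le, hs.2.le⟩
    simp only [h1, one_mul]

/-- **the cohomological equation for germs of smooth functions**, up to a polynomial -/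
theorem coh1 (hμ : 1 < |μ|) (ν : ℝ) {δ : ℝ} (hδ : 0 < δ) {S : ℝ → ℝ}
    (hS : ContDiffOn ℝ ∞ S (Ioo (-δ) δ)) :
    ∃ (p : ℝ → ℝ) (P : Polynomial ℝ), ContDiff ℝ ∞ p ∧
      ∀ s ∈ Ioo (-(δ / 3)) (δ / 3), p (μ * s) = ν * p s + S s - P.eval s := by
  obtain ⟨S', hS', hSS⟩ := exists_germ hδ hS
  obtain ⟨p, P, hp, h⟩ := coh1_global hμ ν hS'
  exact ⟨p, P, hp, fun s hs => by rw [h s, hSS s hs]⟩

/-! ### extension to the line -/

/-- the operator `g ↦ ν g (· / μ) + P (· / μ)` -/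
def opE (μ ν : ℝ) (P : ℝ → ℝ) (g : ℝ → ℝ) (s : ℝ) : ℝ := ν * g (μ⁻¹ * s) + P (μ⁻¹ * s)

theorem opE_iter_congr (hμ : 1 < |μ|) {P g g' : ℝ → ℝ} {r : ℝ}
    (h : ∀ s ∈ Ioo (-r) r, g s = g' s) (n : ℕ) :
    ∀ s ∈ Ioo (-(|μ| ^ n * r)) (|μ| ^ n * r), (opE μ ν P)^[n] g s = (opE μ ν P)^[n] g' s := by
  have hμ0 : 0 < |μ| := by linarith
  induction n with
  | zero => simpa using h
  | succ n ih =>
    intro s hs
    rw [Function.iterate_succ_apply', Function.iterate_succ_apply']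
    unfold opE
    have h1 : μ⁻¹ * s ∈ Ioo (-(|μ| ^ n * r)) (|μ| ^ n * r) := by
      rw [mem_sym] at hs ⊢
      rw [abs_mul, abs_inv, inv_mul_lt_iff₀ hμ0]
      calc |s| < |μ| ^ (n + 1) * r := hs
        _ = |μ| * (|μ| ^ n * r) := by ring
    have := ih _ h1
    unfold opE at this
    rw [this]

theorem opE_iter_cont (hμ : 1 < |μ|) {P g : ℝ → ℝ} (hP : Continuous P) {r : ℝ}
    (hg : ContinuousOn g (Ioo (-r) r)) (n : ℕ) :
    ContinuousOn ((opE μ ν P)^[n] g) (Ioo (-(|μ| ^ n * r)) (|μ| ^ n * r)) := by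
  have hμ0 : 0 < |μ| := by linarith
  induction n with
  | zero => simpa using hg
  | succ n ih =>
    rw [Function.iterate_succ_apply']
    unfold opE
    have hc : Continuous fun s : ℝ => μ⁻¹ * s := by fun_prop
    refine ((ih.comp hc.continuousOn ?_).const_smul ν).add (hP.comp hc).continuousOn
    intro s hs
    rw [mem_sym] at hs
    show μ⁻¹ * s ∈ Ioo _ _
    rw [mem_sym, abs_mul, abs_inv, inv_mul_lt_iff₀ hμ0]
    calc |s| < |μ| ^ (n + 1) * r := hs
      _ = |μ| * (|μ| ^ n * r) := by ring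

/-- a continuous germ with an exact relation extends to the line -/
theorem extend (hμ : 1 < |μ|) {P g : ℝ → ℝ} (hP : Continuous P) {r : ℝ} (hr : 0 < r)
    (hg : ContinuousOn g (Ioo (-r) r))
    (h : ∀ s, |μ * s| < r → g (μ * s) = ν * g s + P s) :
    ∃ G : ℝ → ℝ, Continuous G ∧ (∀ s, G (μ * s) = ν * G s + P s) ∧
      ∀ s ∈ Ioo (-r) r, G s = g s := by
  have hμ0 : 0 < |μ| := by linarith
  have hμne : μ ≠ 0 := abs_pos.1 hμ0
  set E := opE μ ν P with hE
  -- the iterates are compatible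
  have h1 : ∀ s ∈ Ioo (-r) r, g s = E g s := by
    intro s hs
    rw [mem_sym] at hs
    have h2 := h (μ⁻¹ * s) (by rwa [mul_inv_cancel_left₀ hμne])
    rw [mul_inv_cancel_left₀ hμne] at h2
    exact h2
  have h2 : ∀ n : ℕ, ∀ s ∈ Ioo (-(|μ| ^ n * r)) (|μ| ^ n * r), E^[n] g s = E^[n + 1] g s := by
    intro n s hs
    rw [Function.iterate_succ_apply]
    exact opE_iter_congr hμ h1 n s hs
  have hmono : ∀ n m : ℕ, n ≤ m → |μ| ^ n * r ≤ |μ| ^ m * r := fun n m hnm => by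
    have := pow_le_pow_right₀ hμ.le hnm
    gcongr
  have h3 : ∀ n m : ℕ, n ≤ m → ∀ s ∈ Ioo (-(|μ| ^ n * r)) (|μ| ^ n * r),
      E^[n] g s = E^[m] g s := by
    intro n m hnm
    induction m, hnm using Nat.le_induction with
    | base => exact fun s _ => rfl
    | succ m hnm ih =>
      intro s hs
      rw [ih s hs]
      have := hmono n m hnm
      exact h2 m s ⟨by linarith [hs.1], by linarith [hs.2]⟩
  have hex : ∀ s : ℝ, ∃ n : ℕ, |s| < |μ| ^ n * r := by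
    intro s
    obtain ⟨n, hn⟩ := pow_unbounded_of_one_lt (|s| / r) hμ
    exact ⟨n, by rwa [div_lt_iff₀ hr] at hn⟩
  choose n hn using hex
  let G : ℝ → ℝ := fun s => E^[n s] g s
  have hG : ∀ (m : ℕ) (s : ℝ), |s| < |μ| ^ m * r → G s = E^[m] g s := by
    intro m s hs
    show E^[n s] g s = E^[m] g s
    rcases le_total (n s) m with hnm | hnm
    · exact h3 _ _ hnm s (abs_lt.1 (hn s))
    · exact (h3 _ _ hnm s (abs_lt.1 hs)).symm
  refine ⟨G, ?_, ?_, ?_⟩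
  · rw [continuous_iff_continuousAt]
    intro s
    have hmem : Ioo (-(|μ| ^ (n s) * r)) (|μ| ^ (n s) * r) ∈ 𝓝 s :=
      Ioo_mem_nhds (abs_lt.1 (hn s)).1 (abs_lt.1 (hn s)).2
    have h4 := (opE_iter_cont (ν := ν) hμ hP hg (n s)).continuousAt hmem
    refine h4.congr ?_
    filter_upwards [hmem] with t ht
    exact (hG _ t (abs_lt.2 ht)).symm
  · intro s
    have h4 : |μ * s| < |μ| ^ (n s + 1) * r := by
      rw [abs_mul, pow_succ]
      have := mul_lt_mul_of_pos_left (hn s) hμ0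
      linarith
    rw [hG (n s + 1) (μ * s) h4, Function.iterate_succ_apply', hE]
    unfold opE
    rw [inv_mul_cancel_left₀ hμne]
    rfl
  · intro s hs
    rw [mem_sym] at hs
    rw [hG 0 s (by simpa using hs)]
    rfl

/-- **homogenisation**: a continuous germ with `g (μ s) = ν g s + smooth` is, up to a smooth
function, a function `G` on the line with `G (μ s) = ν G s + polynomial`. -/
theorem homogenize (hμ : 1 < |μ|) {g S : ℝ → ℝ} {δ : ℝ} (hδ : 0 < δ)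
    (hg : ContinuousOn g (Ioo (-δ) δ)) (hS : ContDiffOn ℝ ∞ S (Ioo (-δ) δ))
    (h : ∀ s, |μ * s| < δ → g (μ * s) = ν * g s + S s) :
    ∃ (G p : ℝ → ℝ) (P : Polynomial ℝ), Continuous G ∧ ContDiff ℝ ∞ p ∧
      (∀ s, G (μ * s) = ν * G s + P.eval s) ∧
      ∀ s ∈ Ioo (-(δ / 3)) (δ / 3), g s = G s + p s := by
  have hμ0 : 0 < |μ| := by linarith
  obtain ⟨p, P, hp, hpP⟩ := coh1 hμ ν hδ hS
  have hr : 0 < δ / 3 := by positivity
  have hgc : ContinuousOn (fun s => g s - p s) (Ioo (-(δ / 3)) (δ / 3)) :=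
    (hg.mono (Ioo_subset_Ioo (by linarith) (by linarith))).sub hp.continuous.continuousOn
  obtain ⟨G, hG, hGP, hGg⟩ := extend (ν := ν) (g := fun s => g s - p s) hμ P.continuous hr hgc
    (by
      intro s hs
      have hs' : |s| < δ / 3 := by
        rw [abs_mul] at hs
        have : |s| ≤ |μ| * |s| := by nlinarith [abs_nonneg s]
        linarith
      have h1 := h s (by linarith)
      have h2 := hpP s (abs_lt.1 hs')
      rw [h1, h2]; ring)
  exact ⟨G, p, P, hG, hp, hGP, fun s hs => by rw [hGg s hs]; ring⟩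

end Vale.Agent.P207.N3.H80
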