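import Vale.Agent.P207.N3.H476.OneVar

/-!
# P207, line N3, package P13 (helper80): exact relations give good levels

`b (μ s) = ν b s + polynomial`, `1 < |μ|`, `|ν| = |μ| ^ q` and `b` nowhere `C^k₀` imply that `0` is a
good level of `b` with exponent `q`. A perturbed relation gives the bound `BddP`.
-/

open Set Filter Topology Finset

noncomputable section

namespace Vale.Agent.P207.N3.H80

open Vale.Agent.P207.N3.H476

variable {N : ℕ}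

/-! ### polynomials with few coefficients -/

/-- the coefficients of a polynomial of degree `< N` -/
theorem exists_ev (P : Polynomial ℝ) (hN : P.natDegree < N) :
    ∃ c : Fin N → ℝ, ∀ s, P.eval s = ev c s := by
  refine ⟨fun i => P.coeff i, fun s => ?_⟩
  rw [Polynomial.eval_eq_sum_range' hN, ev, Fin.sum_univ_eq_sum_range (fun i => P.coeff i * s ^ i)]

/-- padding with zeros -/
theorem exists_pad {N' : ℕ} (h : N ≤ N') (c : Fin N → ℝ) :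
    ∃ c' : Fin N' → ℝ, ∀ s, ev c' s = ev c s := by
  set P : Polynomial ℝ := ∑ i : Fin N, Polynomial.C (c i) * Polynomial.X ^ (i : ℕ) with hP
  have h1 : ∀ s, P.eval s = ev c s := by
    intro s
    simp [hP, ev, Polynomial.eval_finsetSum]
  have hdeg : ∀ i ≥ N, P.coeff i = 0 := by
    intro i hi
    rw [hP, Polynomial.finsetSum_coeff]
    refine Finset.sum_eq_zero fun j _ => ?_
    rw [Polynomial.coeff_C_mul, Polynomial.coeff_X_pow, if_neg (by have := j.2; omega), mul_zero]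
  rcases Nat.eq_zero_or_pos N with h0 | h0
  · subst h0
    refine ⟨0, fun s => ?_⟩
    simp [ev]
  · have h2 : P.natDegree < N := by
      rw [Nat.lt_iff_le_pred h0, Polynomial.natDegree_le_iff_coeff_eq_zero]
      intro i hi
      exact hdeg i (by omega)
    obtain ⟨c', hc'⟩ := exists_ev P (h2.trans_le h)
    exact ⟨c', fun s => by rw [← hc', h1]⟩

theorem BddP.pad {b : ℝ → ℝ} {s₀ q : ℝ} {N' : ℕ} (h : N ≤ N') {P : ℝ → Fin N → ℝ}
    (hb : BddP b s₀ q N P) : ∃ P' : ℝ → Fin N' → ℝ, BddP b s₀ q N' P' ∧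
      ∀ ρ s, ev (P' ρ) s = ev (P ρ) s := by
  choose P' hP' using fun ρ => exists_pad h (P ρ)
  obtain ⟨B, hB⟩ := hb
  exact ⟨P', ⟨B, fun ρ hρ s hs => by rw [hP']; exact hB ρ hρ s hs⟩, hP'⟩

theorem Good.pad {b : ℝ → ℝ} {s₀ q : ℝ} {N' k₀ : ℕ} (h : N ≤ N')
    (hb : Good b s₀ q N k₀) : Good b s₀ q N' k₀ := by
  obtain ⟨P, hP⟩ := hb
  obtain ⟨P', hP', he⟩ := BddP.pad h hP.bdd
  refine ⟨P', hP', fun ρ hρ h0 => ?_⟩
  obtain ⟨φ, hφ, b', hb', hr⟩ := hP.lim ρ hρ h0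
  refine ⟨φ, hφ, b', ?_, hr⟩
  simpa only [he] using hb'

/-! ### discrete scales -/

section rel

variable {μ ν q : ℝ} {b : ℝ → ℝ}

theorem rel_pow (hμ : μ ≠ 0) (hν : ν ≠ 0) {c : Fin N → ℝ}
    (h : ∀ s, b (μ * s) = ν * b s + ev c s) (m : ℕ) :
    ∃ c' : Fin N → ℝ, ∀ s, b (μ⁻¹ ^ m * s) = ν⁻¹ ^ m * (b s - ev c' s) := by
  induction m with
  | zero => exact ⟨0, fun s => by simp [ev]⟩
  | succ m ih =>
    obtain ⟨c', hc'⟩ := ih
    refine ⟨c' + ν ^ m • dil (μ⁻¹ ^ (m + 1)) c, fun s => ?_⟩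
    have h1 := h (μ⁻¹ ^ (m + 1) * s)
    have h2 : μ * (μ⁻¹ ^ (m + 1) * s) = μ⁻¹ ^ m * s := by
      rw [pow_succ]; field_simp
    rw [h2, hc'] at h1
    have h3 : b (μ⁻¹ ^ (m + 1) * s) = ν⁻¹ * (ν⁻¹ ^ m * (b s - ev c' s) -
        ev c (μ⁻¹ ^ (m + 1) * s)) := by
      rw [h1]; field_simp; ring
    rw [h3, ev_add, ev_smul, ev_dil, pow_succ]
    have h4 : ν⁻¹ ^ m * ν ^ m = 1 := by rw [← mul_pow, inv_mul_cancel₀ hν, one_pow]
    linear_combination (ν⁻¹ * ev c (μ⁻¹ ^ m * μ⁻¹ * s)) * h4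

/-- every scale `ρ ∈ (0, 1]` is `|μ|^{-m} ρ'` with `ρ' ∈ [|μ|⁻¹, 1]` -/
theorem scale_decomp (hμ : 1 < |μ|) {ρ : ℝ} (hρ : ρ ∈ Ioc (0 : ℝ) 1) :
    ∃ (m : ℕ) (r : ℝ), |μ|⁻¹ ≤ r ∧ r ≤ 1 ∧ ρ = |μ|⁻¹ ^ m * r := by
  have hμ0 : 0 < |μ| := by linarith
  obtain ⟨m, h1, h2⟩ := exists_nat_pow_near_of_lt_one hρ.1 hρ.2 (inv_pos.2 hμ0)
    (inv_lt_one_of_one_lt₀ hμ)
  have hpos : 0 < |μ|⁻¹ ^ m := by positivity
  refine ⟨m, ρ / |μ|⁻¹ ^ m, ?_, ?_, ?_⟩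
  · rw [le_div_iff₀ hpos, ← pow_succ']; exact h1.le
  · rw [div_le_one hpos]; exact h2
  · rw [mul_div_cancel₀ _ hpos.ne']

/-- the sign of `μ` -/
theorem sign_pow (hμ : μ ≠ 0) (m : ℕ) : |μ|⁻¹ ^ m = μ⁻¹ ^ m * (μ / |μ|) ^ m := by
  rw [← mul_pow]; congr 1
  have : |μ| ≠ 0 := abs_ne_zero.2 hμ
  field_simp

theorem abs_sign_pow (hμ : μ ≠ 0) (m : ℕ) : |(μ / |μ|) ^ m| = 1 := by
  rw [abs_pow, abs_div, abs_abs, div_self (abs_ne_zero.2 hμ), one_pow]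

/-- the rescaled function in terms of a compact family of parameters -/
theorem raw_decomp (hμ : 1 < |μ|) (hν : |ν| = |μ| ^ q) (hq : 0 ≤ q) {c : Fin N → ℝ}
    (h : ∀ s, b (μ * s) = ν * b s + ev c s) {ρ : ℝ} (hρ : ρ ∈ Ioc (0 : ℝ) 1) :
    ∃ (a t : ℝ) (c' : Fin N → ℝ), 1 ≤ |a| ∧ |a| ≤ |μ| ^ q ∧ |μ|⁻¹ ≤ |t| ∧ |t| ≤ 1 ∧
      ∀ s, raw b 0 q ρ s - ev c' s = a * b (t * s) := by
  have hμ0 : 0 < |μ| := by linarith
  have hμne : μ ≠ 0 := abs_pos.1 hμ0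
  have hνpos : 0 < |ν| := by rw [hν]; exact Real.rpow_pos_of_pos hμ0 q
  have hνne : ν ≠ 0 := abs_pos.1 hνpos
  obtain ⟨m, r, hr1, hr2, hρr⟩ := scale_decomp hμ hρ
  have hr0 : 0 < r := (inv_pos.2 hμ0).trans_le hr1
  obtain ⟨c₁, hc₁⟩ := rel_pow hμne hνne h m
  set σ : ℝ := (μ / |μ|) ^ m with hσ
  have hσ1 : |σ| = 1 := abs_sign_pow hμne m
  set ε : ℝ := (|ν| / ν) ^ m with hε
  have hε1 : |ε| = 1 := by
    rw [hε, abs_pow, abs_div, abs_abs, div_self hνpos.ne', one_pow]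
  refine ⟨ε * r ^ (-q), σ * r, -((ε * r ^ (-q)) • dil (σ * r) c₁), ?_, ?_, ?_, ?_, fun s => ?_⟩
  · rw [abs_mul, hε1, one_mul, abs_of_pos (Real.rpow_pos_of_pos hr0 _)]
    exact Real.one_le_rpow_of_pos_of_le_one_of_nonpos hr0 hr2 (by linarith)
  · rw [abs_mul, hε1, one_mul, abs_of_pos (Real.rpow_pos_of_pos hr0 _), Real.rpow_neg hr0.le,
      ← Real.inv_rpow hr0.le]
    refine Real.rpow_le_rpow (by positivity) ?_ hq
    rw [inv_le_comm₀ hr0 hμ0]; exact hr1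
  · rw [abs_mul, hσ1, one_mul, abs_of_pos hr0]; exact hr1
  · rw [abs_mul, hσ1, one_mul, abs_of_pos hr0]; exact hr2
  · have e1 : 0 + ρ * s = μ⁻¹ ^ m * (σ * r * s) := by
      rw [hρr, sign_pow hμne m, ← hσ]; ring
    have e2 : ρ ^ (-q) = |ν| ^ m * r ^ (-q) := by
      rw [hρr, Real.mul_rpow (by positivity) hr0.le, hν]
      congr 1
      rw [Real.rpow_neg (by positivity), ← Real.rpow_natCast, ← Real.rpow_natCast,
        ← Real.rpow_mul (by positivity), ← Real.rpow_mul (by positivity),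
        Real.inv_rpow (by positivity), inv_inv, mul_comm]
    have e3 : |ν| ^ m * ν⁻¹ ^ m = ε := by
      rw [hε, div_eq_mul_inv, mul_pow]
    have e4 : ev (-((ε * r ^ (-q)) • dil (σ * r) c₁)) s = -(ε * r ^ (-q) * ev c₁ (σ * r * s)) := by
      have := ev_smul (-1) ((ε * r ^ (-q)) • dil (σ * r) c₁) s
      rw [neg_one_smul, ev_smul, ev_dil] at this
      rw [this]; ring
    unfold raw
    rw [e1, hc₁, e2, e4]
    linear_combination (r ^ (-q) * (b (σ * r * s) - ev c₁ (σ * r * s))) * e3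

/-- **an exact relation gives a good level** -/
theorem good_of_rel (hμ : 1 < |μ|) (hν : |ν| = |μ| ^ q) (hq : 0 ≤ q) (hb : Continuous b)
    (P : Polynomial ℝ) (hN : P.natDegree < N) (h : ∀ s, b (μ * s) = ν * b s + P.eval s)
    {k₀ : ℕ} (hrough : ∀ s, ¬ ContDiffAt ℝ k₀ b s) : Good b 0 q N k₀ := by
  obtain ⟨c, hc⟩ := exists_ev P hN
  have hμ0 : 0 < |μ| := by linarith
  have h' : ∀ s, b (μ * s) = ν * b s + ev c s := fun s => by rw [h, hc]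
  have hex : ∀ ρ : ℝ, ∃ (a t : ℝ) (c' : Fin N → ℝ), ρ ∈ Ioc (0 : ℝ) 1 → 1 ≤ |a| ∧
      |a| ≤ |μ| ^ q ∧ |μ|⁻¹ ≤ |t| ∧ |t| ≤ 1 ∧ ∀ s, raw b 0 q ρ s - ev c' s = a * b (t * s) := by
    intro ρ
    by_cases hρ : ρ ∈ Ioc (0 : ℝ) 1
    · obtain ⟨a, t, c', h1⟩ := raw_decomp hμ hν hq h' hρ
      exact ⟨a, t, c', fun _ => h1⟩
    · exact ⟨0, 0, 0, fun h => absurd h hρ⟩
  choose a t P' hP' using hex
  obtain ⟨B, hB⟩ := (isCompact_Icc (a := (-1 : ℝ)) (b := 1)).exists_bound_of_continuousOn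
    hb.continuousOn
  refine ⟨P', ⟨|μ| ^ q * B, fun ρ hρ s hs => ?_⟩, fun ρ hρ _ => ?_⟩
  · obtain ⟨-, h2, -, h4, h5⟩ := hP' ρ hρ
    rw [h5, abs_mul]
    have hts : |t ρ * s| ≤ 1 := by
      rw [abs_mul]
      have := abs_le.2 hs
      calc |t ρ| * |s| ≤ 1 * 1 := by gcongr
        _ = 1 := one_mul 1
    have h6 := hB (t ρ * s) (abs_le.1 hts)
    rw [Real.norm_eq_abs] at h6
    gcongr
  · -- compactness of the parameters
    set K : Set (ℝ × ℝ) := {p | 1 ≤ |p.1| ∧ |p.1| ≤ |μ| ^ q ∧ |μ|⁻¹ ≤ |p.2| ∧ |p.2| ≤ 1} with hK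
    have hKc : IsCompact K := by
      refine IsCompact.of_isClosed_subset
        ((isCompact_Icc (a := -(|μ| ^ q)) (b := |μ| ^ q)).prod
          (isCompact_Icc (a := (-1 : ℝ)) (b := 1))) ?_ ?_
      · have i1 : IsClosed {p : ℝ × ℝ | 1 ≤ |p.1|} := isClosed_le (by fun_prop) (by fun_prop)
        have i2 : IsClosed {p : ℝ × ℝ | |p.1| ≤ |μ| ^ q} := isClosed_le (by fun_prop) (by fun_prop)
        have i3 : IsClosed {p : ℝ × ℝ | |μ|⁻¹ ≤ |p.2|} := isClosed_le (by fun_prop) (by fun_prop)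
        have i4 : IsClosed {p : ℝ × ℝ | |p.2| ≤ 1} := isClosed_le (by fun_prop) (by fun_prop)
        exact i1.inter (i2.inter (i3.inter i4))
      · rintro ⟨x, y⟩ ⟨_, h2, _, h4⟩
        exact ⟨abs_le.1 h2, abs_le.1 h4⟩
    have hmem : ∀ n, (a (ρ n), t (ρ n)) ∈ K := fun n => by
      obtain ⟨h1, h2, h3, h4, -⟩ := hP' (ρ n) (hρ n)
      exact ⟨h1, h2, h3, h4⟩
    obtain ⟨z, hz, φ, hφ, hlim⟩ := hKc.tendsto_subseq hmem
    refine ⟨φ, hφ, fun s => z.1 * b (z.2 * s), ?_, ?_⟩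
    · have hF : Continuous (fun p : (ℝ × ℝ) × ℝ => p.1.1 * b (p.1.2 * p.2)) := by fun_prop
      have huc : UniformContinuousOn (↿(fun (p : ℝ × ℝ) (s : ℝ) => p.1 * b (p.2 * s)))
          (K ×ˢ Set.Icc (-1) 1) :=
        (hKc.prod isCompact_Icc).uniformContinuousOn_of_continuous hF.continuousOn
      have h1 := huc.tendstoUniformlyOn hz
      have h2 : Tendsto (fun n => (a (ρ (φ n)), t (ρ (φ n)))) atTop (𝓝[K] z) :=
        tendsto_nhdsWithin_iff.2 ⟨hlim, Eventually.of_forall fun n => hmem (φ n)⟩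
      intro u hu
      filter_upwards [h2.eventually (h1 u hu)] with n hn s hs
      have h3 := hn s hs
      rw [(hP' (ρ (φ n)) (hρ (φ n))).2.2.2.2 s]
      exact h3
    · intro s _ hcd
      obtain ⟨h1, -, h3, -⟩ := hz
      have hz1 : z.1 ≠ 0 := by
        intro h0
        rw [h0, abs_zero] at h1; linarith
      have hz2 : z.2 ≠ 0 := by
        intro h0
        rw [h0, abs_zero] at h3
        exact absurd h3 (not_le.2 (inv_pos.2 hμ0))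
      refine hrough (z.2 * s) ?_
      have h5 : ContDiffAt ℝ k₀ (fun x : ℝ => z.2⁻¹ * x) (z.2 * s) := by fun_prop
      have h6 : z.2⁻¹ * (z.2 * s) = s := inv_mul_cancel_left₀ hz2 s
      have h7 : ContDiffAt ℝ k₀ (fun s => z.1 * b (z.2 * s)) (z.2⁻¹ * (z.2 * s)) := by
        rw [h6]; exact hcd
      have h8 := (h7.comp (z.2 * s) h5).const_smul z.1⁻¹
      refine h8.congr_of_eventuallyEq (Eventually.of_forall fun x => ?_)
      simp only [Function.comp_apply, smul_eq_mul]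
      rw [mul_inv_cancel_left₀ hz2, inv_mul_cancel_left₀ hz1]

/-- the bound from an exact relation (no roughness) -/
theorem bddP_of_rel (hμ : 1 < |μ|) (hν : |ν| = |μ| ^ q) (hq : 0 ≤ q) (hb : Continuous b)
    (P : Polynomial ℝ) (hN : P.natDegree < N) (h : ∀ s, b (μ * s) = ν * b s + P.eval s) :
    ∃ P' : ℝ → Fin N → ℝ, BddP b 0 q N P' := by
  obtain ⟨c, hc⟩ := exists_ev P hN
  have h' : ∀ s, b (μ * s) = ν * b s + ev c s := fun s => by rw [h, hc]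
  have hex : ∀ ρ : ℝ, ∃ (a t : ℝ) (c' : Fin N → ℝ), ρ ∈ Ioc (0 : ℝ) 1 → 1 ≤ |a| ∧
      |a| ≤ |μ| ^ q ∧ |μ|⁻¹ ≤ |t| ∧ |t| ≤ 1 ∧ ∀ s, raw b 0 q ρ s - ev c' s = a * b (t * s) := by
    intro ρ
    by_cases hρ : ρ ∈ Ioc (0 : ℝ) 1
    · obtain ⟨a, t, c', h1⟩ := raw_decomp hμ hν hq h' hρ
      exact ⟨a, t, c', fun _ => h1⟩
    · exact ⟨0, 0, 0, fun h => absurd h hρ⟩
  choose a t P' hP' using hex
  obtain ⟨B, hB⟩ := (isCompact_Icc (a := (-1 : ℝ)) (b := 1)).exists_bound_of_continuousOn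
    hb.continuousOn
  refine ⟨P', |μ| ^ q * B, fun ρ hρ s hs => ?_⟩
  obtain ⟨-, h2, -, h4, h5⟩ := hP' ρ hρ
  rw [h5, abs_mul]
  have hts : |t ρ * s| ≤ 1 := by
    rw [abs_mul]
    have := abs_le.2 hs
    calc |t ρ| * |s| ≤ 1 * 1 := by gcongr
      _ = 1 := one_mul 1
  have h6 := hB (t ρ * s) (abs_le.1 hts)
  rw [Real.norm_eq_abs] at h6
  gcongr

end rel

end Vale.Agent.P207.N3.H80
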