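import Vale.Agent.P207.N3.H80.Base
import Vale.Agent.P207.N3.H545.Dir

/-!
# P207, line N3, package P13 (4.1 START): products of Hamiltonian vectors of two functions

`Bq l l' = (J l♯) ⊗ (J l'♯)`, `PQ A F F' x = (e^{h lv x} / s_x)² Bq (dF) (dF')` in the disc `e x`:
a tensor on the leaf (`PQ_trans`).
-/

set_option maxSynthPendingDepth 3

open Set Filter Topology Metric
open scoped ContDiff

noncomputable section

namespace Vale.Agent.P207.N3.H80

open Vale.Agent.P207.N3 H545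

/-! ### linear algebra -/

/-- rotation by a right angle, as a linear map -/
def JL : E2 →L[ℝ] E2 := LinearMap.toContinuousLinearMap
  { toFun := J
    map_add' := fun v w => by
      ext i
      fin_cases i
      · simp [J]; ring
      · simp [J]
    map_smul' := fun c v => by
      ext i
      fin_cases i
      · simp [J]
      · simp [J] }

theorem JL_apply (v : E2) : JL v = J v := rfl

theorem J_zero (v : E2) : J v 0 = -(v 1) := rfl

theorem J_one (v : E2) : J v 1 = v 0 := rfl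

theorem inner2 (v w : E2) : inner ℝ v w = v 0 * w 0 + v 1 * w 1 := by
  simp [PiLp.inner_apply, Fin.sum_univ_two, mul_comm]

theorem inner_J_self (v : E2) : inner ℝ (J v) v = 0 := by
  rw [inner2, J_zero, J_one]
  ring

theorem ext2 {x y : E2} (h0 : x 0 = y 0) (h1 : x 1 = y 1) : x = y := by
  ext i
  fin_cases i
  · exact h0
  · exact h1

/-- the operator `v ⊗ w : x ↦ ⟨w, x⟩ v` -/
def tens : E2 →L[ℝ] E2 →L[ℝ] (E2 →L[ℝ] E2) :=
  ((ContinuousLinearMap.smulRightL ℝ E2 E2).comp (innerSL ℝ : E2 →L[ℝ] (E2 →L[ℝ] ℝ))).flip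

theorem tens_apply (v w x : E2) : tens v w x = inner ℝ w x • v := rfl

/-- `(J l♯) ⊗ (J l'♯)` -/
def Bq : (E2 →L[ℝ] ℝ) →L[ℝ] (E2 →L[ℝ] ℝ) →L[ℝ] (E2 →L[ℝ] E2) :=
  tens.bilinearComp (JL.comp (riesz : (E2 →L[ℝ] ℝ) →L[ℝ] E2))
    (JL.comp (riesz : (E2 →L[ℝ] ℝ) →L[ℝ] E2))

theorem Bq_apply (l l' : E2 →L[ℝ] ℝ) (x : E2) :
    Bq l l' x = inner ℝ (J (riesz l')) x • J (riesz l) := rfl

theorem riesz_apply (l : E2 →L[ℝ] ℝ) (v : E2) : inner ℝ (riesz l) v = l v := by
  have h : riesz l = (InnerProductSpace.toDual ℝ E2).symm l := rfl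
  rw [h, InnerProductSpace.toDual_symm_apply]

theorem riesz_comp (l : E2 →L[ℝ] ℝ) (D : E2 →L[ℝ] E2) :
    riesz (l.comp D) = (star D) (riesz l) := by
  refine ext_inner_right ℝ fun v => ?_
  rw [riesz_apply, ContinuousLinearMap.star_eq_adjoint, ContinuousLinearMap.adjoint_inner_left,
    riesz_apply]
  rfl

theorem Bq_self_ne {l : E2 →L[ℝ] ℝ} (h : l ≠ 0) : Bq l l ≠ 0 := by
  intro h0
  have h1 : Bq l l (J (riesz l)) = 0 := by rw [h0]; rfl
  rw [Bq_apply, smul_eq_zero, inner_self_eq_zero] at h1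
  have h2 : J (riesz l) = 0 := by tauto
  have h3 : riesz l = 0 := by
    apply ext2
    · have := congrArg (fun v : E2 => v 1) h2
      simpa [J_one] using this
    · have := congrArg (fun v : E2 => v 0) h2
      simpa [J_zero] using this
  exact h ((LinearIsometryEquiv.map_eq_zero_iff riesz).1 h3)

theorem det2 (A : E2 →L[ℝ] E2) :
    A.det = A (EuclideanSpace.single 0 1) 0 * A (EuclideanSpace.single 1 1) 1 -
      A (EuclideanSpace.single 1 1) 0 * A (EuclideanSpace.single 0 1) 1 := by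
  have h : A.det = LinearMap.det (A : E2 →ₗ[ℝ] E2) := rfl
  rw [h, ← LinearMap.det_toMatrix (EuclideanSpace.basisFun (Fin 2) ℝ).toBasis,
    Matrix.det_fin_two]
  simp [LinearMap.toMatrix_apply]

theorem eq_single (v : E2) :
    v = v 0 • EuclideanSpace.single 0 1 + v 1 • EuclideanSpace.single 1 1 := by
  apply ext2
  · simp
  · simp

theorem apply_eq (A : E2 →L[ℝ] E2) (v : E2) (i : Fin 2) :
    A v i = v 0 * A (EuclideanSpace.single 0 1) i + v 1 * A (EuclideanSpace.single 1 1) i := by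
  conv_lhs => rw [eq_single v]
  simp

theorem star_apply_zero (A : E2 →L[ℝ] E2) (v : E2) :
    (star A) v 0 = A (EuclideanSpace.single 0 1) 0 * v 0 + A (EuclideanSpace.single 0 1) 1 * v 1 := by
  have h1 : (star A) v 0 = inner ℝ ((star A) v) (EuclideanSpace.single 0 1) := by
    rw [inner2]; simp
  rw [h1, ContinuousLinearMap.star_eq_adjoint, ContinuousLinearMap.adjoint_inner_left, inner2]
  ring

theorem star_apply_one (A : E2 →L[ℝ] E2) (v : E2) :
    (star A) v 1 = A (EuclideanSpace.single 1 1) 0 * v 0 + A (EuclideanSpace.single 1 1) 1 * v 1 := by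
  have h1 : (star A) v 1 = inner ℝ ((star A) v) (EuclideanSpace.single 1 1) := by
    rw [inner2]; simp
  rw [h1, ContinuousLinearMap.star_eq_adjoint, ContinuousLinearMap.adjoint_inner_left, inner2]
  ring

/-- `D J Dᵀ = det D • J` -/
theorem J_star (D : E2 →L[ℝ] E2) (v : E2) : D (J ((star D) v)) = D.det • J v := by
  apply ext2
  · rw [apply_eq, J_zero, J_one, star_apply_zero, star_apply_one, det2]
    simp only [PiLp.smul_apply, smul_eq_mul, J_zero]
    ring
  · rw [apply_eq, J_zero, J_one, star_apply_zero, star_apply_one, det2]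
    simp only [PiLp.smul_apply, smul_eq_mul, J_one]
    ring

theorem J_star' {D S : E2 →L[ℝ] E2} (h : S * D = 1) (v : E2) :
    J ((star D) v) = D.det • S (J v) := by
  have h1 := congrArg S (J_star D v)
  rw [map_smul] at h1
  rw [← h1]
  have h2 : (S * D) (J ((star D) v)) = J ((star D) v) := by rw [h]; rfl
  exact h2.symm

/-- the transformation of `Bq` -/
theorem Bq_comp {D S : E2 →L[ℝ] E2} (h : S * D = 1) (l l' : E2 →L[ℝ] ℝ) :
    Bq (l.comp D) (l'.comp D) = (D.det ^ 2) • conjT S (Bq l l') := by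
  ext1 x
  rw [Bq_apply, riesz_comp, riesz_comp, J_star' h, J_star' h, inner_smul_left]
  have h1 : ((D.det ^ 2) • conjT S (Bq l l')) x = (D.det ^ 2) • S (Bq l l' ((star S) x)) := rfl
  rw [h1, Bq_apply, map_smul, smul_smul, smul_smul, ContinuousLinearMap.star_eq_adjoint,
    ContinuousLinearMap.adjoint_inner_right]
  simp only [conj_trivial]
  congr 1
  ring

/-! ### the tensors on the leaf -/

variable {Γ X B : Type} [Group Γ] [MetricSpace X] [ProperSpace X] [MulAction Γ X]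
  [IsIsometricSMul Γ X] [TopologicalSpace B] [CompactSpace B] [T2Space B] [MulAction Γ B]
  [ContinuousConstSMul Γ B]

variable {L : Leaf Γ X B} [MeasurableSpace B] [BorelSpace B] (A : Area L)

/-- the derivative of `F` in the disc `e x` -/
def dF (L : Leaf Γ X B) (F : B → ℝ) (x : X) (u : E2) : E2 →L[ℝ] ℝ :=
  fderiv ℝ (fun u => F (L.e x u)) u

/-- `(∇^⊥ F) ⊗ (∇^⊥ F')` in the disc `e x` -/
def PQ (F F' : B → ℝ) (x : X) (u : E2) : E2 →L[ℝ] E2 :=
  ((Real.exp (A.h * L.lv x) / A.s x u) ^ 2) • Bq (dF L F x u) (dF L F' x u)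

omit [MeasurableSpace B] [BorelSpace B] in
theorem dF_trans {F : B → ℝ} {ξ : B} (hF : L.SmoothOn ξ F) {x y : X} (hx : L.em x = ξ)
    (hy : L.em y = ξ) {u : E2} (hu : u ∈ L.dm x y) :
    dF L F x u = (dF L F y (L.τ x y u)).comp (fderiv ℝ (L.τ x y) u) := by
  have h1 : HasFDerivAt (L.τ x y) (fderiv ℝ (L.τ x y) u) u :=
    ((tau_contDiffAt L (hx.trans hy.symm) hu).differentiableAt (by simp)).hasFDerivAt
  have hd : DifferentiableAt ℝ (fun u => F (L.e y u)) (L.τ x y u) :=
    ((hF y hy).contDiffAt (isOpen_ball.mem_nhds (tau_mem_dm L hu).1)).differentiableAt (by simp)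
  have h2 := hd.hasFDerivAt.comp u h1
  have h3 : (fun u => F (L.e x u)) =ᶠ[𝓝 u] ((fun u => F (L.e y u)) ∘ L.τ x y) := by
    filter_upwards [(isOpen_dm L x y).mem_nhds hu] with v hv
    simp only [Function.comp_apply]
    rw [e_tau_dm L hv]
  unfold dF
  rw [h3.fderiv_eq]
  exact h2.fderiv

theorem PQ_trans {F F' : B → ℝ} {ξ : B} (hF : L.SmoothOn ξ F) (hF' : L.SmoothOn ξ F') {x y : X}
    (hx : L.em x = ξ) (hy : L.em y = ξ) {u : E2} (hu : u ∈ L.dm x y) :
    PQ A F F' x u =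
      conjT (Ring.inverse (fderiv ℝ (L.τ x y) u)) (PQ A F F' y (L.τ x y u)) := by
  have hxy : L.em x = L.em y := hx.trans hy.symm
  set D := fderiv ℝ (L.τ x y) u with hD
  have hunit : IsUnit D := isUnit_fderiv_tau L hxy hu
  have hSD : Ring.inverse D * D = 1 := Ring.inverse_mul_cancel _ hunit
  unfold PQ
  rw [dF_trans hF hx hy hu, dF_trans hF' hx hy hu, ← hD, Bq_comp hSD, map_smul, smul_smul,
    A.s_trans x y hxy u hu, ← hD]
  congr 1
  have hdet : D.det ≠ 0 := by
    intro h0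
    have h1 : (Ring.inverse D * D).det = 1 := by
      rw [hSD]
      exact LinearMap.det_id
    have h2 : (Ring.inverse D * D).det = (Ring.inverse D).det * D.det := by
      have h : (Ring.inverse D * D).det = LinearMap.det (((Ring.inverse D : E2 →L[ℝ] E2) :
        E2 →ₗ[ℝ] E2) * (D : E2 →ₗ[ℝ] E2)) := rfl
      rw [h, LinearMap.det.map_mul]
    rw [h2, h0, mul_zero] at h1
    exact zero_ne_one h1
  have hs : A.s y (L.τ x y u) ≠ 0 := (A.s_pos y _ (tau_mem_dm L hu).1).ne'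
  have he : Real.exp (A.h * L.lv x) = Real.exp (A.h * (L.lv x - L.lv y)) *
      Real.exp (A.h * L.lv y) := by
    rw [← Real.exp_add]; congr 1; ring
  rw [he]
  have hab : |D.det| ≠ 0 := abs_ne_zero.2 hdet
  have hsq : |D.det| ^ 2 = D.det ^ 2 := sq_abs _
  have he0 : Real.exp (A.h * (L.lv x - L.lv y)) ≠ 0 := (Real.exp_pos _).ne'
  rw [div_pow, div_pow, mul_pow, mul_pow, mul_pow, hsq]
  have hd2 : D.det ^ 2 ≠ 0 := pow_ne_zero 2 hdet
  field_simp

/-- `PQ` is smooth -/
theorem PQ_smooth {F F' : B → ℝ} {ξ : B} (hF : L.SmoothOn ξ F) (hF' : L.SmoothOn ξ F') {x : X}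
    (hx : L.em x = ξ) : ContDiffOn ℝ ∞ (PQ A F F' x) (ball 0 3) := by
  have h1 : ∀ {G : B → ℝ}, L.SmoothOn ξ G → ContDiffOn ℝ ∞ (dF L G x) (ball 0 3) := by
    intro G hG
    exact (hG x hx).fderiv_of_isOpen isOpen_ball (m := ∞) (by simp)
  have h2 : ContDiffOn ℝ ∞ (fun u => (Real.exp (A.h * L.lv x) / A.s x u) ^ 2) (ball 0 3) :=
    (contDiffOn_const.div (A.s_smooth x) fun u hu => (A.s_pos x u hu).ne').pow 2
  have h3 : ContDiffOn ℝ ∞ (fun u => Bq (dF L F x u)) (ball 0 3) :=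
    Bq.contDiff.comp_contDiffOn (h1 hF)
  exact h2.smul (h3.clm_apply (h1 hF'))

end Vale.Agent.P207.N3.H80
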