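import Vale.Agent.P207.N3.H80.Coh1
import Vale.Agent.P207.N3.H80.BddRec

/-!
# P207, line N3, package P13 (helper80): the one variable data of 4.1 START

`T'₁₂ = - a₁(x₂) + smooth`, `T'₁₁ = a₁'(x₂) x₁ + B(x₂) + smooth`, with the equivariance of `T'`.
-/

open Set Filter Topology MeasureTheory
open scoped ContDiff

noncomputable section

namespace Vale.Agent.P207.N3.H80

open Vale.Agent.P207.N3.H476

variable {μ₁ μ₂ r : ℝ}

/-- `C^k` at a point is inherited by the contracted points -/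
theorem contDiffAt_inv_mul {G : ℝ → ℝ} {μ ν : ℝ} (hμ : μ ≠ 0) (hν : ν ≠ 0) {P : Polynomial ℝ}
    (h : ∀ s, G (μ * s) = ν * G s + P.eval s) {k : ℕ} {s : ℝ} (hs : ContDiffAt ℝ k G s) :
    ContDiffAt ℝ k G (μ⁻¹ * s) := by
  have h1 : ∀ t, G t = ν⁻¹ * (G (μ * t) - P.eval t) := by
    intro t; rw [h]; field_simp; ring
  have h2 : ContDiffAt ℝ k (fun t => ν⁻¹ * (G (μ * t) - P.eval t)) (μ⁻¹ * s) := by
    refine contDiffAt_const.mul (ContDiffAt.sub ?_ (Polynomial.contDiff_aeval P _).contDiffAt)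
    have h3 : ContDiffAt ℝ k (fun t : ℝ => μ * t) (μ⁻¹ * s) := by fun_prop
    have h4 : ContDiffAt ℝ k G (μ * (μ⁻¹ * s)) := by
      rw [mul_inv_cancel_left₀ hμ]; exact hs
    exact h4.comp (μ⁻¹ * s) h3
  exact h2.congr_of_eventuallyEq (Eventually.of_forall h1)

theorem exists_small_contDiffAt {G : ℝ → ℝ} {μ ν : ℝ} (hμ : 1 < |μ|) (hν : ν ≠ 0)
    {P : Polynomial ℝ} (h : ∀ s, G (μ * s) = ν * G s + P.eval s) {k : ℕ} {s : ℝ}
    (hs : ContDiffAt ℝ k G s) {δ : ℝ} (hδ : 0 < δ) : ∃ t, |t| < δ ∧ ContDiffAt ℝ k G t := by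
  have hμ0 : 0 < |μ| := by linarith
  have hμne : μ ≠ 0 := abs_pos.1 hμ0
  have h1 : ∀ m : ℕ, ContDiffAt ℝ k G (μ⁻¹ ^ m * s) := by
    intro m
    induction m with
    | zero => simpa using hs
    | succ m ih =>
      have := contDiffAt_inv_mul hμne hν h ih
      rwa [← mul_assoc, ← pow_succ'] at this
  obtain ⟨m, hm⟩ := pow_unbounded_of_one_lt (|s| / δ) hμ
  refine ⟨μ⁻¹ ^ m * s, ?_, h1 m⟩
  rw [div_lt_iff₀ hδ] at hm
  rw [abs_mul, abs_pow, abs_inv, inv_pow, inv_mul_lt_iff₀ (by positivity)]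
  exact hm

/-- **one variable data.** -/
theorem onevar (h2 : 1 < |μ₂|) (hr : |μ₁| = |μ₂| ^ r) (hr1 : 1 < r) {c : ℝ} {k : ℕ}
    (hck : c ≠ 0 → 1 ≤ k ∧ (k : ℝ) = r) {a₁ B S₁ S₂ : ℝ → ℝ} {δ : ℝ} (hδ : 0 < δ)
    (ha : ContDiffOn ℝ 1 a₁ (Ioo (-δ) δ)) (hB : ContinuousOn B (Ioo (-δ) δ))
    (hS₁ : ContDiffOn ℝ ∞ S₁ (Ioo (-δ) δ)) (hS₂ : ContDiffOn ℝ ∞ S₂ (Ioo (-δ) δ))
    (h12 : ∀ s, |μ₂ * s| < δ → a₁ (μ₂ * s) = μ₁ * μ₂ * a₁ s + S₁ s)
    (h11 : ∀ s, |μ₂ * s| < δ → B (μ₂ * s) = μ₁ ^ 2 * B s - 2 * μ₁ * c * k * s ^ (k - 1) * a₁ s -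
      c * s ^ k * deriv a₁ (μ₂ * s) + S₂ s) {q : ℝ} (hq0 : 0 ≤ q) (hq : q < 2 * r) :
    ∃ (G G₂ B' p₁ p₂ : ℝ → ℝ) (P : Polynomial ℝ) (δ' : ℝ) (N : ℕ), 0 < δ' ∧ δ' ≤ δ ∧
      Continuous G ∧ (∀ s, HasDerivAt G₂ (G s) s) ∧ Continuous B' ∧
      ContDiff ℝ ∞ p₁ ∧ ContDiff ℝ ∞ p₂ ∧
      (∀ s ∈ Ioo (-δ') δ', a₁ s = G₂ s + p₁ s) ∧ (∀ s ∈ Ioo (-δ') δ', B s = B' s + p₂ s) ∧
      (∀ s, G (μ₂ * s) = μ₁ * G s + P.eval s) ∧
      (∃ P₁ : ℝ → Fin N → ℝ, BddP G₂ 0 (r + 1) N P₁) ∧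
      (∃ P₂ : ℝ → Fin N → ℝ, BddP B' 0 q N P₂) ∧
      (∀ k₀ : ℕ, (∀ s, ¬ ContDiffAt ℝ k₀ G s) → Good G 0 r N k₀) := by
  have hμ₂0 : 0 < |μ₂| := by linarith
  have hμ₂ne : μ₂ ≠ 0 := abs_pos.1 hμ₂0
  have hμ₁0 : 0 < |μ₁| := by rw [hr]; exact Real.rpow_pos_of_pos hμ₂0 r
  -- the derivative of `a₁`
  have hopen : IsOpen (Ioo (-δ) δ) := isOpen_Ioo
  have hda : ∀ s ∈ Ioo (-δ) δ, HasDerivAt a₁ (deriv a₁ s) s := fun s hs =>
    (((ha s hs).contDiffAt (hopen.mem_nhds hs)).differentiableAt (by simp)).hasDerivAt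
  have hdc : ContinuousOn (deriv a₁) (Ioo (-δ) δ) :=
    ha.continuousOn_deriv_of_isOpen hopen (le_refl _)
  have hsmall : ∀ s, |μ₂ * s| < δ → s ∈ Ioo (-δ) δ := by
    intro s hs
    rw [mem_sym]
    rw [abs_mul] at hs
    nlinarith [abs_nonneg s]
  have hS₁d : ContDiffOn ℝ ∞ (fun s => μ₂⁻¹ * deriv S₁ s) (Ioo (-δ) δ) := by
    refine contDiffOn_const.mul ?_
    have h : ContDiffOn ℝ (∞ + 1) S₁ (Ioo (-δ) δ) := hS₁
    exact ((contDiffOn_succ_iff_deriv_of_isOpen hopen).1 h).2.2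
  have hrel' : ∀ s, |μ₂ * s| < δ → deriv a₁ (μ₂ * s) = μ₁ * deriv a₁ s + μ₂⁻¹ * deriv S₁ s := by
    intro s hs
    have hs0 := hsmall s hs
    have hs1 : μ₂ * s ∈ Ioo (-δ) δ := mem_sym.2 hs
    have e1 : HasDerivAt (fun t => a₁ (μ₂ * t)) (deriv a₁ (μ₂ * s) * μ₂) s := by
      have h0 : HasDerivAt (fun t : ℝ => μ₂ * t) μ₂ s := by
        simpa using (hasDerivAt_id s).const_mul μ₂
      exact (hda _ hs1).comp s h0
    have e2 : HasDerivAt (fun t => μ₁ * μ₂ * a₁ t + S₁ t) (μ₁ * μ₂ * deriv a₁ s + deriv S₁ s) s :=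
      ((hda s hs0).const_mul _).add
        (((hS₁ s hs0).contDiffAt (hopen.mem_nhds hs0)).differentiableAt (by simp)).hasDerivAt
    have e3 : (fun t => a₁ (μ₂ * t)) =ᶠ[𝓝 s] fun t => μ₁ * μ₂ * a₁ t + S₁ t := by
      have hc : ContinuousAt (fun t : ℝ => |μ₂ * t|) s := by fun_prop
      filter_upwards [hc.eventually (gt_mem_nhds hs)] with t ht
      exact h12 t ht
    have e4 := (e2.congr_of_eventuallyEq e3).unique e1
    field_simp
    linarith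
  obtain ⟨G, p, P, hG, hp, hGP, hGp⟩ := homogenize (ν := μ₁) h2 hδ hdc hS₁d hrel'
  have hδ3 : 0 < δ / 3 := by positivity
  -- the primitive
  set G₂ : ℝ → ℝ := fun s => ∫ t in (0 : ℝ)..s, G t with hG₂
  have hG₂d : ∀ s, HasDerivAt G₂ (G s) s := fun s =>
    intervalIntegral.integral_hasDerivAt_right (hG.intervalIntegrable _ _)
      (hG.stronglyMeasurableAtFilter _ _) hG.continuousAt
  have hG₂0 : G₂ 0 = 0 := by simp [hG₂]
  set p₁ : ℝ → ℝ := fun s => a₁ 0 + ∫ t in (0 : ℝ)..s, p t with hp₁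
  have hp₁d : ∀ s, HasDerivAt p₁ (p s) s := fun s =>
    (intervalIntegral.integral_hasDerivAt_right (hp.continuous.intervalIntegrable _ _)
      (hp.continuous.stronglyMeasurableAtFilter _ _) hp.continuous.continuousAt).const_add _
  have hp₁s : ContDiff ℝ ∞ p₁ := by
    have h3 : ContDiff ℝ (∞ + 1) p₁ := by
      rw [contDiff_succ_iff_deriv]
      refine ⟨fun s => (hp₁d s).differentiableAt, fun h => absurd h (by simp), ?_⟩
      have : deriv p₁ = p := funext fun s => (hp₁d s).deriv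
      rw [this]; exact hp
    exact h3
  have ha₁ : ∀ s ∈ Ioo (-(δ / 3)) (δ / 3), a₁ s = G₂ s + p₁ s := by
    have hsub : Ioo (-(δ / 3)) (δ / 3) ⊆ Ioo (-δ) δ := Ioo_subset_Ioo (by linarith) (by linarith)
    intro s hs
    have h0 : (0 : ℝ) ∈ Ioo (-(δ / 3)) (δ / 3) := ⟨by linarith, hδ3⟩
    have h4 : ∀ t ∈ Ioo (-(δ / 3)) (δ / 3),
        HasDerivAt (fun t => a₁ t - (G₂ t + p₁ t)) 0 t := by
      intro t ht
      have h5 := (hda t (hsub ht)).sub ((hG₂d t).add (hp₁d t))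
      have h6 : deriv a₁ t - (G t + p t) = 0 := by rw [hGp t ht]; ring
      rwa [h6] at h5
    have h7 := (convex_Ioo (-(δ / 3)) (δ / 3)).is_const_of_fderivWithin_eq_zero
      (𝕜 := ℝ) (f := fun t => a₁ t - (G₂ t + p₁ t))
      (fun t ht => (h4 t ht).differentiableAt.differentiableWithinAt)
      (fun t ht => by
        rw [fderivWithin_of_isOpen isOpen_Ioo ht, (h4 t ht).hasFDerivAt.fderiv]
        ext
        simp) hs h0
    have h8 : a₁ 0 - (G₂ 0 + p₁ 0) = 0 := by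
      simp [hG₂0, hp₁]
    rw [h8] at h7
    linarith
  -- relation for `G₂`
  obtain ⟨A, hA, hA0⟩ := exists_antideriv P
  have hG₂P : ∀ s, G₂ (μ₂ * s) = μ₁ * μ₂ * G₂ s + (Polynomial.C μ₂ * A).eval s := by
    intro s
    have h4 : ∀ t, HasDerivAt (fun t => G₂ (μ₂ * t) - (μ₁ * μ₂ * G₂ t +
        (Polynomial.C μ₂ * A).eval t)) 0 t := by
      intro t
      have e1 : HasDerivAt (fun t => G₂ (μ₂ * t)) (G (μ₂ * t) * μ₂) t := by
        have h0 : HasDerivAt (fun t : ℝ => μ₂ * t) μ₂ t := by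
          simpa using (hasDerivAt_id t).const_mul μ₂
        exact (hG₂d _).comp t h0
      have e2 : HasDerivAt (fun t => (Polynomial.C μ₂ * A).eval t) (μ₂ * P.eval t) t := by
        have := (Polynomial.C μ₂ * A).hasDerivAt t
        simpa [hA] using this
      have e3 := e1.sub (((hG₂d t).const_mul (μ₁ * μ₂)).add e2)
      have e4 : G (μ₂ * t) * μ₂ - (μ₁ * μ₂ * G t + μ₂ * P.eval t) = 0 := by
        rw [hGP]; ring
      rwa [e4] at e3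
    have h5 := is_const_of_deriv_eq_zero (fun t => (h4 t).differentiableAt)
      (fun t => (h4 t).deriv) s 0
    rw [mul_zero, hG₂0] at h5
    simp only [Polynomial.eval_mul, Polynomial.eval_C, hA0, mul_zero, add_zero, sub_zero] at h5
    simp only [Polynomial.eval_mul, Polynomial.eval_C]
    linarith
  have hG₂c : Continuous G₂ := continuous_iff_continuousAt.2 fun s => (hG₂d s).continuousAt
  -- the function `B`
  set E : ℝ → ℝ := fun s => -(2 * μ₁ * c * k) * (s ^ (k - 1) * G₂ s) +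
    -c * (s ^ k * G (μ₂ * s)) with hE
  have hEc : Continuous E := by
    have : Continuous fun s : ℝ => G (μ₂ * s) := hG.comp (by fun_prop)
    fun_prop
  set S₃ : ℝ → ℝ := fun s => S₂ s - 2 * μ₁ * c * k * (s ^ (k - 1) * p₁ s) -
    c * (s ^ k * p (μ₂ * s)) with hS₃
  have hS₃s : ContDiffOn ℝ ∞ S₃ (Ioo (-δ) δ) := by
    have e1 : ContDiff ℝ ∞ (fun s : ℝ => p (μ₂ * s)) := hp.comp (by fun_prop)
    have e2 : ContDiff ℝ ∞ (fun s : ℝ => 2 * μ₁ * c * k * (s ^ (k - 1) * p₁ s)) :=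
      contDiff_const.mul ((contDiff_id.pow _).mul hp₁s)
    have e3 : ContDiff ℝ ∞ (fun s : ℝ => c * (s ^ k * p (μ₂ * s))) :=
      contDiff_const.mul ((contDiff_id.pow _).mul e1)
    exact (hS₂.sub e2.contDiffOn).sub e3.contDiffOn
  have hδ3' : δ / 3 ≤ δ := by linarith
  have hBrel : ∀ s, |μ₂ * s| < δ / 3 → B (μ₂ * s) = μ₁ ^ 2 * B s + E s + S₃ s := by
    intro s hs
    have h3 := h11 s (by linarith)
    have hs' : s ∈ Ioo (-(δ / 3)) (δ / 3) := by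
      rw [mem_sym]; rw [abs_mul] at hs
      nlinarith [abs_nonneg s]
    rw [h3, ha₁ s hs', hGp _ (mem_sym.2 hs)]
    simp only [hE, hS₃]
    ring
  obtain ⟨p₂, P₂, hp₂, hp₂P⟩ := coh1 h2 (μ₁ ^ 2) (show 0 < δ / 3 by positivity)
    (hS₃s.mono (Ioo_subset_Ioo (by linarith) (by linarith)))
  have hr9 : 0 < δ / 3 / 3 := by positivity
  have hBc : ContinuousOn (fun s => B s - p₂ s) (Ioo (-(δ / 3 / 3)) (δ / 3 / 3)) :=
    (hB.mono (Ioo_subset_Ioo (by linarith) (by linarith))).sub hp₂.continuous.continuousOn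
  obtain ⟨B', hB', hB'P, hB'B⟩ := extend (ν := μ₁ ^ 2) (P := fun s => E s + P₂.eval s)
    (g := fun s => B s - p₂ s) h2 (hEc.add P₂.continuous) hr9 hBc (by
      intro s hs
      have hs2 : s ∈ Ioo (-(δ / 3 / 3)) (δ / 3 / 3) := by
        rw [mem_sym]; rw [abs_mul] at hs
        nlinarith [abs_nonneg s]
      rw [hBrel s (by linarith), hp₂P s hs2]
      ring)
  -- the bounds
  have hμ₁₂ : |μ₁ * μ₂| = |μ₂| ^ (r + 1) := by
    rw [abs_mul, hr, Real.rpow_add hμ₂0, Real.rpow_one]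
  set N₁ : ℕ := (Polynomial.C μ₂ * A).natDegree + P.natDegree + 1 with hN₁
  obtain ⟨Q₁, hQ₁⟩ := bddP_of_rel (N := N₁) (q := r + 1) h2 hμ₁₂ (by linarith) hG₂c _
    (by omega) hG₂P
  obtain ⟨Q₀, hQ₀⟩ := bddP_of_rel (N := N₁) (q := r) h2 hr (by linarith) hG P (by omega) hGP
  obtain ⟨R₁, hR₁⟩ := BddP.pow_mul hQ₁ (k - 1)
  obtain ⟨R₀, hR₀⟩ := BddP.pow_mul hQ₀ k
  set N₂ : ℕ := N₁ + k + P.natDegree + k + 1 + P₂.natDegree with hN₂
  have hEb : ∃ PE : ℝ → Fin N₂ → ℝ, BddP E 0 q N₂ PE := by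
    by_cases hc : c = 0
    · refine ⟨0, 0, fun ρ _ s _ => ?_⟩
      have e1 : ∀ t, E t = 0 := by intro t; simp [hE, hc]
      simp [raw, ev, e1]
    · obtain ⟨hk1, hkr⟩ := hck hc
      -- the first summand
      obtain ⟨U₁, hU₁, -⟩ := BddP.pad (N' := N₂) (by omega) hR₁
      obtain ⟨U₁', hU₁'⟩ := BddP.lower hU₁ (q' := q) (by
        have : ((k - 1 : ℕ) : ℝ) = k - 1 := by rw [Nat.cast_sub hk1]; simp
        rw [this, hkr]; linarith)
      obtain ⟨U₀, hU₀, -⟩ := BddP.pad (N' := N₂) (by omega) hR₀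
      obtain ⟨U₀', hU₀'⟩ := BddP.lower hU₀ (q' := q) (by rw [hkr]; linarith)
      obtain ⟨U₃, hU₃⟩ := bddP_poly (N := N₂) (Polynomial.X ^ k * P) (by
        refine lt_of_le_of_lt Polynomial.natDegree_mul_le ?_
        rw [Polynomial.natDegree_X_pow]
        omega) q
      have h4 := BddP.add (BddP.add (BddP.smul hU₁' (-(2 * μ₁ * c * k)))
        (BddP.smul hU₀' (-c * μ₁))) (BddP.smul hU₃ (-c))
      have e1 : E = fun s => -(2 * μ₁ * c * k) * (s ^ (k - 1) * G₂ s) + -c * μ₁ * (s ^ k * G s) +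
            -c * (Polynomial.X ^ k * P).eval s := by
        funext s
        simp only [hE, hGP, Polynomial.eval_mul, Polynomial.eval_pow, Polynomial.eval_X]
        ring
      rw [e1]
      exact ⟨_, h4⟩
  obtain ⟨PE, hPE⟩ := hEb
  obtain ⟨Q₂, hQ₂⟩ := bddP_rec (N := N₂) (ν := μ₁ ^ 2) h2 hq0 (by
      rw [abs_pow, hr, ← Real.rpow_natCast, ← Real.rpow_mul hμ₂0.le]
      refine Real.rpow_lt_rpow_of_exponent_lt h2 ?_
      push_cast
      linarith) hB'.continuousOn hPE P₂ (by omega) (fun s _ => by rw [hB'P]; ring)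
  obtain ⟨Q₁', hQ₁', -⟩ := BddP.pad (N' := N₂) (by omega) hQ₁
  refine ⟨G, G₂, B', p₁, p₂, P, δ / 3 / 3, N₂, hr9, by linarith, hG, hG₂d, hB', hp₁s, hp₂,
    fun s hs => ha₁ s ⟨by linarith [hs.1], by linarith [hs.2]⟩, fun s hs => ?_, hGP,
    ⟨Q₁', hQ₁'⟩, ⟨Q₂, hQ₂⟩, fun k₀ hk₀ => ?_⟩
  · rw [hB'B s hs]; ring
  · exact Good.pad (N := N₁) (by omega) (good_of_rel h2 hr (by linarith) hG P (by omega) hGP hk₀)

end Vale.Agent.P207.N3.H80
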