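import Vale.Agent.P207.N3.H80.StartA
import Vale.Agent.P207.N3.H476.StartPt

/-!
# P207, line N3, package P13: 4.1 START

`start` : if `E^s` is rough, `o` is a closed orbit with `r > 1`, and `T'₂₂` is smooth near `β^+`,
then for all `k` there is a function `f` with `df ≠ 0` and `E^s(df, ·)` of class `C^k` on a piece
of a leaf.
-/

set_option maxSynthPendingDepth 3

open Set Filter Topology Metric
open scoped ContDiff

noncomputable section

namespace Vale.Agent.P207.N3.H80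

open Vale.Agent.P207.N3.H545
open Vale.Agent.P207.N3.H503 (SN pr EE Mz psi rad)
open Vale.Agent.P207.N3.H854 (jj dc)

variable {Γ X B : Type} [Group Γ] [MetricSpace X] [ProperSpace X] [MulAction Γ X]
  [IsIsometricSMul Γ X] [TopologicalSpace B] [CompactSpace B] [T2Space B] [MulAction Γ B]
  [ContinuousConstSMul Γ B] [MeasurableSpace B] [BorelSpace B]

variable {L : Leaf Γ X B} {o : Orb L}

omit [MeasurableSpace B] [BorelSpace B] in
/-- the exponent `r = log |μ₁| / log |μ₂|` -/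
theorem exists_tri (n : Nor L o) (hs : n.N.Split) :
    ∃ (μ₁ μ₂ c : ℝ) (k : ℕ) (r : ℝ), n.N = .tri μ₁ μ₂ c k ∧ 1 < |μ₂| ∧ |μ₁| = |μ₂| ^ r ∧
      1 < r := by
  have hok := n.ok
  cases hN : n.N with
  | tri μ₁ μ₂ c k =>
    rw [hN] at hs hok
    have h1 : |μ₂| < |μ₁| := hs
    have h2 : 1 < |μ₂| := hok.1
    have h20 : 0 < |μ₂| := by linarith
    have h10 : 0 < |μ₁| := by linarith
    have hl2 : 0 < Real.log |μ₂| := Real.log_pos h2
    refine ⟨μ₁, μ₂, c, k, Real.log |μ₁| / Real.log |μ₂|, rfl, h2, ?_, ?_⟩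
    · rw [Real.rpow_def_of_pos h20, mul_div_cancel₀ _ hl2.ne', Real.exp_log h10]
    · rw [lt_div_iff₀ hl2, one_mul]
      exact Real.log_lt_log h20 h1
  | cx c s =>
    rw [hN] at hs
    exact absurd hs (lt_irrefl _)

/-- **4.1 START** -/
theorem start (A : Area L) {T : Tens L} {k₀ : ℕ} (hR : Rough T k₀) (n : Nor L o)
    (hs : n.N.Split) (D : DivIn T n) (h22 : SmNear fun z => D.Tp z (bas 1) 1) (k : ℕ) :
    Start T k := by
  obtain ⟨μ₁, μ₂, c, j, r, hN, h2, hr, hr1⟩ := exists_tri n hs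
  have hr0 : 0 < r := by linarith
  obtain ⟨G, G₂, B', P, N, hG, hG₂, hB', hrel, ⟨P₁, hP₁⟩, ⟨P₂, hP₂⟩, hgood, hSN⟩ :=
    onevar_in D hs h22 hN hr hr1 (q := 3 / 2 * r) (by positivity) (by linarith)
  have hμ1 : μ₁ ≠ 0 := by
    rintro rfl
    rw [abs_zero] at hr
    have : 0 < |μ₂| ^ r := Real.rpow_pos_of_pos (by linarith) r
    linarith
  obtain ⟨K, hK⟩ : ∃ K : ℕ, K = max k₀ k := ⟨_, rfl⟩
  have hK1 : k₀ ≤ K := hK ▸ le_max_left k₀ k
  have hK2 : k ≤ K := hK ▸ le_max_right k₀ k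
  by_cases h : ∀ s, ¬ ContDiffAt ℝ (K : ℕ) G s
  · -- `G` nowhere smooth
    obtain ⟨P₀, hP₀⟩ := hgood K h
    have hG₂c : Continuous G₂ := continuous_iff_continuousAt.2 fun s => (hG₂ s).continuousAt
    have hb : ∀ i, Continuous ((![G, G₂, B'] : Fin 3 → ℝ → ℝ) i) := by
      intro i
      fin_cases i
      · exact hG
      · exact hG₂c
      · exact hB'
    exact H476.start_b_of_loc A (n := n) (b := ![G, G₂, B']) hSN hb hr0 (q₂ := 3 / 2 * r)
      (by linarith) (Rough.mono hR hK1) (P := ![P₀, P₁, P₂]) hP₀ hP₁ hP₂ k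
  · -- `G` smooth somewhere
    push Not at h
    obtain ⟨s, hs'⟩ := h
    have h5 : Start T K := start_a A hSN hG₂ fun δ hδ =>
      exists_small_contDiffAt h2 hμ1 hrel hs' hδ
    exact Start.mono h5 hK2

end Vale.Agent.P207.N3.H80
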