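import Vale.Agent.P207.N3.H80.OneV
import Vale.Agent.P207.N3.H80.Form

/-!
# P207, line N3, package P13 (4.1 START): the one variable data from `DivIn`

`loc34` : near `β^+` the tensor is `smooth + (a'(x₁) x₀ + B(x₁)) e₀e₀ᵀ - a(x₁) (e₀e₁ᵀ + e₁e₀ᵀ)`;
`rel34` : the equivariance; `onevar_in` : the same with global `G`, `G₂`, `B'` (`G₂' = G`).
-/

set_option maxSynthPendingDepth 3

open Set Filter Topology Metric MeasureTheory
open scoped ContDiff

noncomputable section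

namespace Vale.Agent.P207.N3.H80

open Vale.Agent.P207.N3.H545
open Vale.Agent.P207.N3.H503 (SN pr EE Mz psi rad)
open Vale.Agent.P207.N3.H854 (jj dc)
open Vale.Agent.P207.N3.H476 (BddP Good)

variable {Γ X B : Type} [Group Γ] [MetricSpace X] [ProperSpace X] [MulAction Γ X]
  [IsIsometricSMul Γ X] [TopologicalSpace B] [CompactSpace B] [T2Space B] [MulAction Γ B]
  [ContinuousConstSMul Γ B]

variable {L : Leaf Γ X B} {o : Orb L}

theorem wdiv_congr {R : ℝ} {u v u' v' g : E2 → ℝ} (h : H684.WDiv R u v g)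
    (hu : ∀ y ∈ ball (0 : E2) R, u' y = u y) (hv : ∀ y ∈ ball (0 : E2) R, v' y = v y) :
    H684.WDiv R u' v' g := by
  intro f hf hc hs
  rw [← h f hf hc hs]
  refine integral_congr_ae (Eventually.of_forall fun y => ?_)
  simp only
  by_cases hy : y ∈ ball (0 : E2) R
  · rw [hu y hy, hv y hy]
  · have h1 : y ∉ tsupport f := fun h2 => hy (hs h2)
    have h2 : fderiv ℝ f y = 0 := fderiv_of_notMem_tsupport ℝ h1
    rw [h2]
    simp

theorem loc34 {T : Tens L} {n : Nor L o} (D : DivIn T n) (hs : n.N.Split)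
    (h22 : SmNear fun z => D.Tp z (bas 1) 1) :
    ∃ d > 0, ∃ a a' B : ℝ → ℝ, Continuous a ∧ Continuous a' ∧ Continuous B ∧
      (∀ s, |s| < d → HasDerivAt a (a' s) s) ∧
      SN fun z => Mz T n z - ((a' (z 1) * z 0 + B (z 1)) • EE 0 - a (z 1) • XX) := by
  have hsymm : ∀ z ∈ ball (0 : E2) D.r, D.Tp z (bas 0) 1 = D.Tp z (bas 1) 0 := by
    intro z hz
    have := D.Tp_symm z hz (bas 0) (bas 1)
    rw [H503.inner_bas, real_inner_comm, H503.inner_bas] at this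
    exact this
  have hcont : ∀ j l, ContinuousOn (fun z => D.Tp z (bas j) l) (ball 0 D.r) := by
    intro j l
    have h1 : ContinuousOn (fun z => D.Tp z (bas j)) (ball 0 D.r) :=
      D.Tp_cont.clm_apply continuousOn_const
    exact (pr l).continuous.comp_continuousOn h1
  have hW2 : H684.WDiv D.r (fun z => D.Tp z (bas 1) 0) (fun z => D.Tp z (bas 1) 1)
      (fun z => D.Xp z 1) :=
    wdiv_congr (H503.wdiv D 1) (fun y hy => (hsymm y hy).symm) fun _ _ => rfl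
  obtain ⟨d, hd, a, a', B, ha, ha', hB, hder, P, Q, hP, hQ, hy⟩ :=
    H684.type34 D.r_pos (hcont 0 0) (hcont 1 0) (H503.wdiv D 0) hW2 h22 (D.R2 hs h22) (D.R0 hs)
  refine ⟨d, hd, a, a', B, ha, ha', hB, hder, ?_⟩
  -- the tensor `T'`
  have hT : SN fun z => D.Tp z - ((a' (z 1) * z 0 + B (z 1)) • EE 0 - a (z 1) • XX) := by
    have hval : ∀ z, ∀ i j, (D.Tp z - ((a' (z 1) * z 0 + B (z 1)) • EE 0 - a (z 1) • XX)) (bas i) j =
        D.Tp z (bas i) j - ((a' (z 1) * z 0 + B (z 1)) * EE 0 (bas i) j - a (z 1) * XX (bas i) j) :=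
      fun z i j => rfl
    have e00 : EE 0 (bas 0) 0 = 1 := by simp [H503.EE_apply, bas]
    have e01 : EE 0 (bas 0) 1 = 0 := by simp [H503.EE_apply, bas]
    have e10 : EE 0 (bas 1) 0 = 0 := by simp [H503.EE_apply, bas]
    have e11 : EE 0 (bas 1) 1 = 0 := by simp [H503.EE_apply, bas]
    have x00 : XX (bas 0) 0 = 0 := by simp [XX_apply, bas]
    have x01 : XX (bas 0) 1 = 1 := by simp [XX_apply, bas]
    have x10 : XX (bas 1) 0 = 1 := by simp [XX_apply, bas]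
    have x11 : XX (bas 1) 1 = 0 := by simp [XX_apply, bas]
    refine H503.SN_of_bas (H503.SN_of_coord fun j => ?_) (H503.SN_of_coord fun j => ?_)
    · fin_cases j
      · refine (SN.of_on hd hQ).congr ?_
        filter_upwards [ball_mem_nhds (0 : E2) hd] with z hz
        have h1 := (hy z hz).2
        simp only [Fin.zero_eta]
        rw [hval, e00, x00, h1]; ring
      · refine (SN.of_on hd hP).congr ?_
        filter_upwards [ball_mem_nhds (0 : E2) hd, ball_mem_nhds (0 : E2) D.r_pos] with z hz hz'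
        have h1 := (hy z hz).1
        simp only [Fin.mk_one]
        rw [hval, e01, x01, hsymm z hz', h1]; ring
    · fin_cases j
      · refine (SN.of_on hd hP).congr ?_
        filter_upwards [ball_mem_nhds (0 : E2) hd] with z hz
        have h1 := (hy z hz).1
        simp only [Fin.zero_eta]
        rw [hval, e10, x10, h1]; ring
      · refine (H503.SN_of_smNear h22).congr (Eventually.of_forall fun z => ?_)
        simp only [Fin.mk_one]
        rw [hval, e11, x11]; ring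
  refine (hT.sub (H503.link_SN D)).congr (Eventually.of_forall fun z => ?_)
  abel

theorem sn_comp {E E' F : Type} [NormedAddCommGroup E] [NormedSpace ℝ E] [NormedAddCommGroup E']
    [NormedSpace ℝ E'] [NormedAddCommGroup F] [NormedSpace ℝ F] {g : E' → F} {w : E → E'}
    (h : SN g) (hw : SN w) (h0 : w 0 = 0) : SN fun z => g (w z) := by
  have hc : Tendsto w (𝓝 0) (𝓝 0) := by
    have := hw.self.continuousAt.tendsto
    rwa [h0] at this
  filter_upwards [hw, hc.eventually h] with z h1 h2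
  exact ContDiffAt.comp z h2 h1

theorem sn_mul {E : Type} [NormedAddCommGroup E] [NormedSpace ℝ E] {g g' : E → ℝ}
    (h : SN g) (h' : SN g') : SN fun z => g z * g' z := by
  filter_upwards [h, h'] with z h1 h2
  exact h1.mul h2

theorem rel34 {T : Tens L} {n : Nor L o} {μ₁ μ₂ c : ℝ} {k : ℕ} (hN : n.N = .tri μ₁ μ₂ c k)
    {a a' B : ℝ → ℝ}
    (h : SN fun z => Mz T n z - ((a' (z 1) * z 0 + B (z 1)) • EE 0 - a (z 1) • XX)) :
    ∃ S₁ S₂ : ℝ → ℝ, SN S₁ ∧ SN S₂ ∧ ∀ᶠ s in 𝓝 (0 : ℝ),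
      a (μ₂ * s) = μ₁ * μ₂ * a s + S₁ s ∧
      B (μ₂ * s) = μ₁ ^ 2 * B s - 2 * μ₁ * c * k * s ^ (k - 1) * a s - c * s ^ k * a' (μ₂ * s) +
        S₂ s := by
  obtain ⟨S, hS, hM⟩ := H503.Mz_eq n T
  set W : E2 → E2 →L[ℝ] E2 :=
    fun z => Mz T n z - ((a' (z 1) * z 0 + B (z 1)) • EE 0 - a (z 1) • XX) with hW
  have hWM : ∀ z, Mz T n z = W z + ((a' (z 1) * z 0 + B (z 1)) • EE 0 - a (z 1) • XX) := by
    intro z; rw [hW]; simp only; abel
  -- the curves
  set w : ℝ → E2 := fun s => s • bas 1 with hw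
  set zz : ℝ → E2 := fun s => n.N.fn (w s) with hzz
  have hw0 : ∀ s, w s 0 = 0 := fun s => by simp [hw, bas]
  have hw1 : ∀ s, w s 1 = s := fun s => by simp [hw, bas]
  have hwS : SN w := SN.of_contDiff (contDiff_id.smul contDiff_const)
  have hw00 : w 0 = 0 := by simp [hw]
  have hzS : SN zz := SN.of_contDiff (n.N.contDiff_fn.comp (contDiff_id.smul contDiff_const))
  have hz00 : zz 0 = 0 := by
    rw [hzz]; simp only; rw [hw00]
    have h1 := H790.NF.inv_zero n.ok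
    have h2 := H790.NF.fn_inv n.ok 0
    rwa [h1] at h2
  have hz0 : ∀ s, zz s 0 = c * s ^ k := by
    intro s
    rw [hzz]; simp only; rw [hN, H854.fn_tri_0, hw0, hw1]; ring
  have hz1 : ∀ s, zz s 1 = μ₂ * s := by
    intro s
    rw [hzz]; simp only; rw [hN, H854.fn_tri_1, hw1]
  -- entries of smooth maps along the curves
  have ent : ∀ {V : E2 → E2 →L[ℝ] E2} {γ : ℝ → E2}, SN V → SN γ → γ 0 = 0 → ∀ i j,
      SN fun s => V (γ s) (bas i) j := by
    intro V γ hV hγ h0 i j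
    have h1 : SN fun s => V (γ s) := sn_comp hV hγ h0
    have h2 : SN fun s => V (γ s) (bas i) := h1.clm (SN.of_contDiff contDiff_const)
    exact h2.lin (pr j)
  set c' : ℝ → ℝ := fun s => c * (k * s ^ (k - 1)) with hc'
  have hc'S : SN c' := SN.of_contDiff (by rw [hc']; fun_prop)
  have hcst : ∀ x : ℝ, SN (fun _ : ℝ => x) := fun x => SN.of_contDiff contDiff_const
  refine ⟨fun s => W (zz s) (bas 1) 0 - μ₁ * μ₂ * W (w s) (bas 1) 0 -
      μ₂ * c' s * W (w s) (bas 1) 1 - S (zz s) (bas 1) 0,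
    fun s => μ₁ ^ 2 * W (w s) (bas 0) 0 + μ₁ * c' s * (W (w s) (bas 0) 1 + W (w s) (bas 1) 0) +
      c' s ^ 2 * W (w s) (bas 1) 1 + S (zz s) (bas 0) 0 - W (zz s) (bas 0) 0, ?_, ?_, ?_⟩
  · refine (((ent h hzS hz00 1 0).sub (sn_mul (hcst (μ₁ * μ₂)) (ent h hwS hw00 1 0))).sub
      (sn_mul (sn_mul (hcst μ₂) hc'S) (ent h hwS hw00 1 1))).sub (ent hS hzS hz00 1 0)
  · have h2 : SN fun s => c' s ^ 2 := (sn_mul hc'S hc'S).congr
      (Eventually.of_forall fun s => by ring)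
    exact ((((sn_mul (hcst (μ₁ ^ 2)) (ent h hwS hw00 0 0)).add (sn_mul (sn_mul (hcst μ₁) hc'S)
      ((ent h hwS hw00 0 1).add (ent h hwS hw00 1 0)))).add
      (sn_mul h2 (ent h hwS hw00 1 1))).add (ent hS hzS hz00 0 0)).sub (ent h hzS hz00 0 0)
  · have hzt : Tendsto zz (𝓝 0) (𝓝 0) := by
      have := hzS.self.continuousAt.tendsto
      rwa [hz00] at this
    filter_upwards [hzt.eventually hM] with s hs
    have hinv : n.N.inv (zz s) = w s := H790.NF.inv_fn n.ok _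
    have hdN : fderiv ℝ n.N.fn (w s) = H854.mat μ₁ (c' s) 0 μ₂ := by
      rw [(H854.hasFDerivAt_fn n.N (w s)).fderiv, hN]
      simp only [H854.dN, hw1, hc']
    rw [hinv, hdN, hWM (zz s), hWM (w s), conj_eq] at hs
    have e00 : EE 0 (bas 0) 0 = 1 := by simp [H503.EE_apply, bas]
    have e01 : EE 0 (bas 0) 1 = 0 := by simp [H503.EE_apply, bas]
    have e10 : EE 0 (bas 1) 0 = 0 := by simp [H503.EE_apply, bas]
    have e11 : EE 0 (bas 1) 1 = 0 := by simp [H503.EE_apply, bas]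
    have x00 : XX (bas 0) 0 = 0 := by simp [XX_apply, bas]
    have x01 : XX (bas 0) 1 = 1 := by simp [XX_apply, bas]
    have x10 : XX (bas 1) 0 = 1 := by simp [XX_apply, bas]
    have x11 : XX (bas 1) 1 = 0 := by simp [XX_apply, bas]
    have hstar1 : (star (H854.mat μ₁ (c' s) 0 μ₂)) (bas 1) = μ₂ • bas 1 := by
      rw [H854.star_mat]
      apply ext2
      · rw [H854.mat_0]; simp [bas]
      · rw [H854.mat_1]; simp [bas]
    have hstar0 : (star (H854.mat μ₁ (c' s) 0 μ₂)) (bas 0) = μ₁ • bas 0 + c' s • bas 1 := by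
      rw [H854.star_mat]
      apply ext2
      · rw [H854.mat_0]; simp [bas]
      · rw [H854.mat_1]; simp [bas]
    -- values
    have v1 : ∀ (V : E2 →L[ℝ] E2) (x y : ℝ) (i j : Fin 2),
        (V + (x • EE 0 - y • XX)) (bas i) j = V (bas i) j + (x * EE 0 (bas i) j -
          y * XX (bas i) j) := fun V x y i j => rfl
    have h10 := congrArg (fun V : E2 →L[ℝ] E2 => V (bas 1) 0) hs
    have h00 := congrArg (fun V : E2 →L[ℝ] E2 => V (bas 0) 0) hs
    simp only at h10 h00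
    have hL : ∀ (U V : E2 →L[ℝ] E2) (i j : Fin 2), (U + V) (bas i) j = U (bas i) j + V (bas i) j :=
      fun U V i j => rfl
    rw [v1, hL, hz0, hz1, hw0, hw1] at h10 h00
    have c1 : ∀ U : E2 →L[ℝ] E2, (conjT (H854.mat μ₁ (c' s) 0 μ₂) U) (bas 1) 0 =
        μ₂ * (μ₁ * U (bas 1) 0 + c' s * U (bas 1) 1) := by
      intro U
      have : (conjT (H854.mat μ₁ (c' s) 0 μ₂) U) (bas 1) =
          H854.mat μ₁ (c' s) 0 μ₂ (U ((star (H854.mat μ₁ (c' s) 0 μ₂)) (bas 1))) := rfl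
      rw [this, hstar1, map_smul, H854.mat_0]
      simp only [PiLp.smul_apply, smul_eq_mul]
      ring
    have c0 : ∀ U : E2 →L[ℝ] E2, (conjT (H854.mat μ₁ (c' s) 0 μ₂) U) (bas 0) 0 =
        μ₁ * (μ₁ * U (bas 0) 0 + c' s * U (bas 1) 0) +
          c' s * (μ₁ * U (bas 0) 1 + c' s * U (bas 1) 1) := by
      intro U
      have : (conjT (H854.mat μ₁ (c' s) 0 μ₂) U) (bas 0) =
          H854.mat μ₁ (c' s) 0 μ₂ (U ((star (H854.mat μ₁ (c' s) 0 μ₂)) (bas 0))) := rfl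
      rw [this, hstar0, map_add, map_smul, map_smul, H854.mat_0]
      simp only [PiLp.add_apply, PiLp.smul_apply, smul_eq_mul]
    rw [c1, v1, v1, e10, x10, e11, x11] at h10
    rw [c0, v1, v1, v1, v1, e00, x00, e10, x10, e01, x01, e11, x11] at h00
    constructor
    · linear_combination -h10
    · simp only [hc'] at h00 ⊢
      linear_combination h00

theorem cdo_one {a a' : ℝ → ℝ} {δ : ℝ} (ha' : Continuous a')
    (h : ∀ s, |s| < δ → HasDerivAt a (a' s) s) : ContDiffOn ℝ 1 a (Ioo (-δ) δ) := by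
  have h1 : ContDiffOn ℝ (0 + 1) a (Ioo (-δ) δ) := by
    rw [contDiffOn_succ_iff_deriv_of_isOpen isOpen_Ioo]
    refine ⟨fun s hs => (h s (mem_sym.1 hs)).differentiableAt.differentiableWithinAt, by simp, ?_⟩
    rw [contDiffOn_zero]
    exact ha'.continuousOn.congr fun s hs => (h s (mem_sym.1 hs)).deriv
  simpa using h1

/-- **the one variable data** -/
theorem onevar_in {T : Tens L} {n : Nor L o} (D : DivIn T n) (hs : n.N.Split)
    (h22 : SmNear fun z => D.Tp z (bas 1) 1) {μ₁ μ₂ c : ℝ} {k : ℕ} (hN : n.N = .tri μ₁ μ₂ c k)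
    {r : ℝ} (hr : |μ₁| = |μ₂| ^ r) (hr1 : 1 < r) {q : ℝ} (hq0 : 0 ≤ q) (hq : q < 2 * r) :
    ∃ (G G₂ B' : ℝ → ℝ) (P : Polynomial ℝ) (N : ℕ), Continuous G ∧
      (∀ s, HasDerivAt G₂ (G s) s) ∧ Continuous B' ∧
      (∀ s, G (μ₂ * s) = μ₁ * G s + P.eval s) ∧
      (∃ P₁ : ℝ → Fin N → ℝ, BddP G₂ 0 (r + 1) N P₁) ∧
      (∃ P₂ : ℝ → Fin N → ℝ, BddP B' 0 q N P₂) ∧
      (∀ k₀ : ℕ, (∀ s, ¬ ContDiffAt ℝ k₀ G s) → Good G 0 r N k₀) ∧
      SN fun z => Mz T n z - ((G (z 1) * z 0 + B' (z 1)) • EE 0 - G₂ (z 1) • XX) := by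
  obtain ⟨d, hd, a, a', B₀, ha, ha', hB, hder, hSN⟩ := loc34 D hs h22
  obtain ⟨S₁, S₂, hS₁, hS₂, hrel⟩ := rel34 hN hSN
  obtain ⟨h2, h12, hck⟩ : 1 < |μ₂| ∧ |μ₂| ≤ |μ₁| ∧ (c ≠ 0 → 1 ≤ k ∧ μ₁ = μ₂ ^ k) := by
    have := n.ok
    rw [hN] at this
    exact this
  have h20 : 0 < |μ₂| := by linarith
  have hck' : c ≠ 0 → 1 ≤ k ∧ (k : ℝ) = r := by
    intro hc
    obtain ⟨h3, h4⟩ := hck hc
    refine ⟨h3, ?_⟩
    have h5 : |μ₂| ^ (k : ℝ) = |μ₂| ^ r := by
      rw [← hr, Real.rpow_natCast, h4, abs_pow]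
    have h6 := congrArg Real.log h5
    rw [Real.log_rpow h20, Real.log_rpow h20] at h6
    exact mul_right_cancel₀ (Real.log_pos h2).ne' h6
  obtain ⟨r₁, hr₁, hS₁'⟩ := hS₁.exists_on
  obtain ⟨r₂, hr₂, hS₂'⟩ := hS₂.exists_on
  obtain ⟨ε, hε, hrel'⟩ := Metric.eventually_nhds_iff_ball.1 hrel
  set δ : ℝ := min (min d ε) (min r₁ r₂) with hδdef
  have hδ : 0 < δ := lt_min (lt_min hd hε) (lt_min hr₁ hr₂)
  have hδd : δ ≤ d := (min_le_left _ _).trans (min_le_left _ _)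
  have hδε : δ ≤ ε := (min_le_left _ _).trans (min_le_right _ _)
  have hδ1 : δ ≤ r₁ := (min_le_right _ _).trans (min_le_left _ _)
  have hδ2 : δ ≤ r₂ := (min_le_right _ _).trans (min_le_right _ _)
  have hsub : ∀ {R : ℝ}, δ ≤ R → Ioo (-δ) δ ⊆ ball (0 : ℝ) R := by
    intro R hR s hs
    rw [mem_ball_zero_iff, Real.norm_eq_abs]
    exact (mem_sym.1 hs).trans_le hR
  have hle : ∀ s, |μ₂ * s| < δ → |s| < δ := by
    intro s hs
    rw [abs_mul] at hs
    have : |s| ≤ |μ₂| * |s| := le_mul_of_one_le_left (abs_nonneg s) h2.le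
    linarith
  have hmem : ∀ s, |μ₂ * s| < δ → s ∈ ball (0 : ℝ) ε := fun s hs =>
    hsub hδε (mem_sym.2 (hle s hs))
  obtain ⟨G, G₂, B', p₁, p₂, P, δ', N, hδ', hδ'δ, hG, hG₂, hB', hp₁, hp₂, ea, eB, hGrel, hP₁, hP₂,
    hgood⟩ := onevar h2 hr hr1 hck' hδ (cdo_one ha' fun s hs => hder s (hs.trans_le hδd))
    hB.continuousOn (hS₁'.mono (hsub hδ1)) (hS₂'.mono (hsub hδ2))
    (fun s hs => (hrel' s (hmem s hs)).1)
    (fun s hs => by
      have h3 := (hrel' s (hmem s hs)).2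
      rw [(hder (μ₂ * s) (hs.trans_le hδd)).deriv]
      exact h3) hq0 hq
  refine ⟨G, G₂, B', P, N, hG, hG₂, hB', hGrel, hP₁, hP₂, hgood, ?_⟩
  have hp₁' : ContDiff ℝ ∞ (deriv p₁) := contDiff_deriv_top hp₁
  -- the derivative
  have ea' : ∀ s ∈ Ioo (-δ') δ', a' s = G s + deriv p₁ s := by
    intro s hs
    have h3 : a =ᶠ[𝓝 s] fun t => G₂ t + p₁ t := by
      filter_upwards [isOpen_Ioo.mem_nhds hs] with t ht using ea t ht
    have h4 := hder s ((mem_sym.1 hs).trans_le (hδ'δ.trans hδd))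
    have h5 : HasDerivAt (fun t => G₂ t + p₁ t) (G s + deriv p₁ s) s :=
      (hG₂ s).add ((hp₁.differentiable (by simp)) s).hasDerivAt
    exact h4.unique (h5.congr_of_eventuallyEq h3)
  have hz1 : SN fun z : E2 => z 1 := H503.SN_coord_fun 1
  have hz0 : SN fun z : E2 => z 0 := H503.SN_coord_fun 0
  have t1 : SN fun z : E2 => deriv p₁ (z 1) * z 0 + p₂ (z 1) :=
    (sn_mul (sn_comp (SN.of_contDiff hp₁') hz1 rfl) hz0).add (sn_comp (SN.of_contDiff hp₂) hz1 rfl)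
  have t2 : SN fun z : E2 => p₁ (z 1) := sn_comp (SN.of_contDiff hp₁) hz1 rfl
  have t3 : SN fun z : E2 => (deriv p₁ (z 1) * z 0 + p₂ (z 1)) • EE 0 - p₁ (z 1) • XX := by
    filter_upwards [t1, t2] with z h3 h4
    exact (h3.smul contDiffAt_const).sub (h4.smul contDiffAt_const)
  refine (hSN.add t3).congr ?_
  have hcoord : Tendsto (fun z : E2 => z 1) (𝓝 0) (𝓝 0) := by
    have := hz1.self.continuousAt.tendsto
    exact this
  filter_upwards [hcoord.eventually (isOpen_Ioo.mem_nhds (show (0 : ℝ) ∈ Ioo (-δ') δ' from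
    ⟨by linarith, hδ'⟩))] with z hz
  rw [ea' _ hz, ea _ hz, eB _ hz]
  module

end Vale.Agent.P207.N3.H80
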