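import Vale.Agent.P207.N3.H80.Base2
import Vale.Agent.P207.N3.H80.StartIn

/-!
# P207, line N3, package P13 (4.1 START), case (a): `G` is `C^k` near small values
-/

set_option maxSynthPendingDepth 3

open Set Filter Topology Metric
open scoped ContDiff

noncomputable section

namespace Vale.Agent.P207.N3.H80

open Vale.Agent.P207.N3.H545
open Vale.Agent.P207.N3.H503 (SN pr EE Mz psi rad)
open Vale.Agent.P207.N3.H854 (jj dc)

variable {Γ X B : Type} [Group Γ] [MetricSpace X] [ProperSpace X] [MulAction Γ X]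
  [IsIsometricSMul Γ X] [TopologicalSpace B] [CompactSpace B] [T2Space B] [MulAction Γ B]
  [ContinuousConstSMul Γ B]

variable {L : Leaf Γ X B} {o : Orb L}

/-- a primitive of a `C^k` function -/
theorem contDiffAt_prim {G G₂ : ℝ → ℝ} (h : ∀ s, HasDerivAt G₂ (G s) s) {k : ℕ} {s : ℝ}
    (hs : ContDiffAt ℝ k G s) : ContDiffAt ℝ (k + 1 : ℕ) G₂ s := by
  have h1 : deriv G₂ = G := funext fun t => (h t).deriv
  have h2 : ContDiffAt ℝ ((k : ℕ) + 1) G₂ s := by
    obtain ⟨u, hu, hGu⟩ := hs.contDiffOn (m := k) le_rfl (by simp)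
    obtain ⟨v, hv, hvo, hsv⟩ := _root_.mem_nhds_iff.1 (by simpa using hu)
    have h3 : ContDiffOn ℝ ((k : ℕ) + 1) G₂ v := by
      rw [contDiffOn_succ_iff_deriv_of_isOpen hvo]
      refine ⟨fun t _ => (h t).differentiableAt.differentiableWithinAt, by simp, ?_⟩
      rw [h1]
      exact hGu.mono hv
    exact h3.contDiffAt (hvo.mem_nhds hsv)
  exact_mod_cast h2

theorem Start.mono {T : Tens L} {k l : ℕ} (h : Start T k) (hl : l ≤ k) : Start T l := by
  obtain ⟨y, O, f, h1, h2, h3, h4, h5, h6⟩ := h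
  exact ⟨y, O, f, h1, h2, h3, h4, h5.of_le (by exact_mod_cast hl),
    h6.of_le (by exact_mod_cast hl)⟩

theorem Rough.mono {T : Tens L} {k l : ℕ} (h : Rough T k) (hl : k ≤ l) : Rough T l :=
  fun y O h1 h2 h3 h4 => h y O h1 h2 h3 (h4.of_le (by exact_mod_cast hl))

theorem Bq_grad (l : E2 →L[ℝ] ℝ) (l' : E2 →L[ℝ] ℝ) : Bq l' l (riesz l) = 0 := by
  rw [Bq_apply, inner_J_self, zero_smul]

variable [MeasurableSpace B] [BorelSpace B] (A : Area L)

/-- `Sg ∇f`, `f = x₁` -/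
theorem Sg_grad (n : Nor L o) (c₁ c₂ : E2 → ℝ) (y : X) (u : E2) :
    Sg A n c₁ c₂ y u (riesz (dF L (cf n 1) y u)) =
      (dc n A ^ 2 * c₂ (n.x (L.e y u))) •
        PQ A (cf n 1) (cf n 0) y u (riesz (dF L (cf n 1) y u)) := by
  have h1 : PQ A (cf n 1) (cf n 1) y u (riesz (dF L (cf n 1) y u)) = 0 := by
    have : PQ A (cf n 1) (cf n 1) y u (riesz (dF L (cf n 1) y u)) =
        ((Real.exp (A.h * L.lv y) / A.s y u) ^ 2) •
          Bq (dF L (cf n 1) y u) (dF L (cf n 1) y u) (riesz (dF L (cf n 1) y u)) := rfl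
    rw [this, Bq_grad, smul_zero]
  have h2 : PQ A (cf n 0) (cf n 1) y u (riesz (dF L (cf n 1) y u)) = 0 := by
    have : PQ A (cf n 0) (cf n 1) y u (riesz (dF L (cf n 1) y u)) =
        ((Real.exp (A.h * L.lv y) / A.s y u) ^ 2) •
          Bq (dF L (cf n 0) y u) (dF L (cf n 1) y u) (riesz (dF L (cf n 1) y u)) := rfl
    rw [this, Bq_grad, smul_zero]
  have h3 : Sg A n c₁ c₂ y u (riesz (dF L (cf n 1) y u)) =
      (dc n A) ^ 2 • (c₁ (n.x (L.e y u)) • PQ A (cf n 1) (cf n 1) y u (riesz (dF L (cf n 1) y u)) +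
        c₂ (n.x (L.e y u)) • (PQ A (cf n 1) (cf n 0) y u (riesz (dF L (cf n 1) y u)) +
          PQ A (cf n 0) (cf n 1) y u (riesz (dF L (cf n 1) y u)))) := rfl
  rw [h3, h1, h2, smul_zero, zero_add, add_zero, smul_smul]

include A in
/-- **case (a)** -/
theorem start_a {T : Tens L} {n : Nor L o} {G G₂ B' : ℝ → ℝ} {k : ℕ}
    (h : SN fun z => Mz T n z - ((G (z 1) * z 0 + B' (z 1)) • EE 0 - G₂ (z 1) • XX))
    (hG₂ : ∀ s, HasDerivAt G₂ (G s) s)
    (hsm : ∀ δ > 0, ∃ s, |s| < δ ∧ ContDiffAt ℝ k G s) : Start T k := by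
  obtain ⟨ρ, hρ, hform⟩ := form A (c₁ := fun z => G (z 1) * z 0 + B' (z 1))
    (c₂ := fun z => G₂ (z 1)) h
  obtain ⟨s, hs, hGs⟩ := hsm (ρ / 2) (by positivity)
  have hG₂s : ContDiffAt ℝ k G₂ s :=
    (contDiffAt_prim hG₂ hGs).of_le (by exact_mod_cast Nat.le_succ k)
  obtain ⟨ε, hε, hball⟩ := Metric.eventually_nhds_iff_ball.1 (hG₂s.eventually (by simp))
  obtain ⟨y, hy, -, hyu⟩ := exists_start n (s • bas 1) (lt_min (half_pos hρ) hε)
  have hv : ‖(s • bas 1 : E2)‖ = |s| := by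
    rw [norm_smul, Real.norm_eq_abs]
    simp [bas]
  have hpr : ∀ w : E2, |w 1| ≤ ‖w‖ := fun w => by
    have := PiLp.norm_apply_le w 1
    simpa using this
  -- the disc
  have hin : ∀ u ∈ ball (0 : E2) 3, ‖n.x (L.e y u)‖ < ρ := by
    intro u hu
    have h1 := (hyu u (ball_subset_closedBall hu)).trans_le (min_le_left _ _)
    have h2 : ‖n.x (L.e y u)‖ ≤ ‖n.x (L.e y u) - s • bas 1‖ + ‖(s • bas 1 : E2)‖ := by
      have := norm_add_le (n.x (L.e y u) - s • bas 1) (s • bas 1)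
      rwa [sub_add_cancel] at this
    rw [hv] at h2
    linarith
  have hG₂u : ∀ u ∈ ball (0 : E2) 3, ContDiffAt ℝ k G₂ (n.x (L.e y u) 1) := by
    intro u hu
    refine hball _ ?_
    have h1 := (hyu u (ball_subset_closedBall hu)).trans_le (min_le_right _ _)
    have h2 := hpr (n.x (L.e y u) - s • bas 1)
    have h3 : (n.x (L.e y u) - s • bas 1) 1 = n.x (L.e y u) 1 - s := by simp [bas]
    rw [h3] at h2
    rw [mem_ball, Real.dist_eq]
    linarith
  have hV := hform y hy hin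
  have hfs : ContDiffOn ℝ ∞ (fun u => cf n 1 (L.e y u)) (ball 0 3) := cf_smooth n 1 y hy
  refine ⟨y, ball 0 3, fun u => cf n 1 (L.e y u), isOpen_ball, subset_rfl,
    ⟨0, mem_ball_self (by norm_num)⟩, fun u hu => ?_, hfs.of_le (by exact_mod_cast le_top), ?_⟩
  · -- the gradient
    intro h0
    have h1 : dF L (cf n 1) y u = 0 := by
      have h2 : riesz (dF L (cf n 1) y u) = 0 := h0
      exact (LinearIsometryEquiv.map_eq_zero_iff riesz).1 h2
    rw [dF_cf n 1 hy hu] at h1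
    have hunit := H854.isUnit_of_det _ (H854.jj_det n hy hu)
    obtain ⟨v, hv⟩ := hunit
    have h3 : (pr 1).comp ((v : E2 →L[ℝ] E2) * ((v⁻¹ : (E2 →L[ℝ] E2)ˣ) : E2 →L[ℝ] E2)) = 0 := by
      have : (pr 1).comp ((v : E2 →L[ℝ] E2) * ((v⁻¹ : (E2 →L[ℝ] E2)ˣ) : E2 →L[ℝ] E2)) =
        ((pr 1).comp (v : E2 →L[ℝ] E2)).comp ((v⁻¹ : (E2 →L[ℝ] E2)ˣ) : E2 →L[ℝ] E2) := rfl
      rw [this, hv, h1]
      rfl
    rw [Units.mul_inv] at h3
    have h4 := congrArg (fun l : E2 →L[ℝ] ℝ => l (bas 1)) h3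
    have h5 : (bas 1 : E2) 1 = 0 := h4
    simp [bas] at h5
  · -- `E^s(df, ·)`
    have hg : ContDiffOn ℝ ∞ (gradient fun u => cf n 1 (L.e y u)) (ball 0 3) := by
      rw [gradient_eq_riesz]
      exact riesz.contDiff.comp_contDiffOn (hfs.fderiv_of_isOpen isOpen_ball (m := ∞) (by simp))
    have h1 : ContDiffOn ℝ k (fun u => (T.N y u - Sg A n (fun z => G (z 1) * z 0 + B' (z 1))
        (fun z => G₂ (z 1)) y u) (gradient (fun u => cf n 1 (L.e y u)) u)) (ball 0 3) :=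
      (hV.clm_apply hg).of_le (by exact_mod_cast le_top)
    have h2 : ContDiffOn ℝ k (fun u => (dc n A ^ 2 * G₂ (n.x (L.e y u) 1)) •
        PQ A (cf n 1) (cf n 0) y u (gradient (fun u => cf n 1 (L.e y u)) u)) (ball 0 3) := by
      have h3 : ContDiffOn ℝ k (fun u => PQ A (cf n 1) (cf n 0) y u
          (gradient (fun u => cf n 1 (L.e y u)) u)) (ball 0 3) :=
        ((PQ_smooth A (cf_smooth n 1) (cf_smooth n 0) hy).clm_apply hg).of_le
          (by exact_mod_cast le_top)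
      have h4 : ContDiffOn ℝ k (fun u => G₂ (n.x (L.e y u) 1)) (ball 0 3) := by
        intro u hu
        have h5 : ContDiffAt ℝ k (fun u => n.x (L.e y u) 1) u :=
          (hfs.contDiffAt (isOpen_ball.mem_nhds hu)).of_le (by exact_mod_cast le_top)
        exact (ContDiffAt.comp u (hG₂u u hu) h5).contDiffWithinAt
      exact (contDiffOn_const.mul h4).smul h3
    refine (h1.add h2).congr fun u _ => ?_
    have h3 := Sg_grad A n (fun z => G (z 1) * z 0 + B' (z 1)) (fun z => G₂ (z 1)) y u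
    have h4 : riesz (dF L (cf n 1) y u) = gradient (fun u => cf n 1 (L.e y u)) u := rfl
    rw [h4] at h3
    rw [← h3]
    have h5 : (T.N y u - Sg A n (fun z => G (z 1) * z 0 + B' (z 1)) (fun z => G₂ (z 1)) y u)
        (gradient (fun u => cf n 1 (L.e y u)) u) = T.N y u (gradient (fun u => cf n 1 (L.e y u)) u) -
        Sg A n (fun z => G (z 1) * z 0 + B' (z 1)) (fun z => G₂ (z 1)) y u
          (gradient (fun u => cf n 1 (L.e y u)) u) := rfl
    rw [h5, sub_add_cancel]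

end Vale.Agent.P207.N3.H80
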